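import Vale.Agent.P243.Defs

/-!
# P243: areas of the triangles `T` and `To`
-/

open MeasureTheory Set

namespace Vale.Agent.P243

namespace TriAux

theorem lint (c h : ℝ) (hc : 0 ≤ c) (hh : 0 ≤ h) :
    ∫⁻ x in Ioc 0 h, ENNReal.ofReal (c * x) = ENNReal.ofReal (c * h ^ 2 / 2) := by
  rw [← ofReal_integral_eq_lintegral_ofReal]
  · congr 1
    rw [← intervalIntegral.integral_of_le hh, intervalIntegral.integral_const_mul, integral_id]
    ring
  · have h1 : IntegrableOn (fun x : ℝ => c * x) (Ioc 0 h) := by
      rw [← intervalIntegrable_iff_integrableOn_Ioc_of_le hh]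
      exact (continuous_const.mul continuous_id).intervalIntegrable _ _
    exact h1
  · refine (ae_restrict_iff' measurableSet_Ioc).2 (Filter.Eventually.of_forall ?_)
    intro x hx
    exact mul_nonneg hc hx.1.le

theorem meas_T (s t h : ℝ) : MeasurableSet (T s t h) := by
  have h1 : IsClosed (T s t h) := by
    have : T s t h = {q : ℝ × ℝ | 0 ≤ q.1} ∩ {q | q.1 ≤ h} ∩ {q | s * q.1 ≤ q.2} ∩
        {q | q.2 ≤ t * q.1} := by
      ext q; simp [T, and_assoc]
    rw [this]
    refine ((IsClosed.inter ?_ ?_).inter ?_).inter ?_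
    · exact isClosed_le continuous_const continuous_fst
    · exact isClosed_le continuous_fst continuous_const
    · exact isClosed_le (continuous_const.mul continuous_fst) continuous_snd
    · exact isClosed_le continuous_snd (continuous_const.mul continuous_fst)
  exact h1.measurableSet

theorem meas_To (s t h : ℝ) : MeasurableSet (To s t h) := by
  have h1 : IsOpen (To s t h) := by
    have : To s t h = {q : ℝ × ℝ | 0 < q.1} ∩ {q | q.1 < h} ∩ {q | s * q.1 < q.2} ∩
        {q | q.2 < t * q.1} := by
      ext q; simp [To, and_assoc]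
    rw [this]
    refine ((IsOpen.inter ?_ ?_).inter ?_).inter ?_
    · exact isOpen_lt continuous_const continuous_fst
    · exact isOpen_lt continuous_fst continuous_const
    · exact isOpen_lt (continuous_const.mul continuous_fst) continuous_snd
    · exact isOpen_lt continuous_snd (continuous_const.mul continuous_fst)
  exact h1.measurableSet

end TriAux

theorem vol_T (s t h : ℝ) (hst : s ≤ t) (hh : 0 ≤ h) :
    volume (T s t h) = ENNReal.ofReal ((t - s) * h ^ 2 / 2) := by
  rw [Measure.volume_eq_prod, Measure.prod_apply (TriAux.meas_T s t h),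
    ← TriAux.lint (t - s) h (sub_nonneg.2 hst) hh, ← lintegral_indicator measurableSet_Ioc]
  refine lintegral_congr_ae ?_
  have h0 : ∀ᵐ x : ℝ, x ≠ 0 := by
    rw [ae_iff]; simp
  filter_upwards [h0] with x hx
  by_cases hm : x ∈ Ioc 0 h
  · rw [indicator_of_mem hm]
    have : Prod.mk x ⁻¹' T s t h = Icc (s * x) (t * x) := by
      ext y
      simp [T, hm.1.le, hm.2]
    rw [this, Real.volume_Icc]
    congr 1; ring
  · rw [indicator_of_notMem hm]
    have : Prod.mk x ⁻¹' T s t h = ∅ := by
      ext y
      simp only [T, mem_preimage, mem_ofPred_eq, mem_empty_iff_false, iff_false]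
      rintro ⟨h1, h2, -⟩
      exact hm ⟨lt_of_le_of_ne h1 (Ne.symm hx), h2⟩
    rw [this, measure_empty]

theorem vol_To (s t h : ℝ) (hst : s ≤ t) (hh : 0 ≤ h) :
    volume (To s t h) = ENNReal.ofReal ((t - s) * h ^ 2 / 2) := by
  rw [Measure.volume_eq_prod, Measure.prod_apply (TriAux.meas_To s t h),
    ← TriAux.lint (t - s) h (sub_nonneg.2 hst) hh, ← lintegral_indicator measurableSet_Ioc]
  refine lintegral_congr_ae ?_
  have h0 : ∀ᵐ x : ℝ, x ≠ h := by
    rw [ae_iff]; simp
  filter_upwards [h0] with x hx
  by_cases hm : x ∈ Ioc 0 h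
  · rw [indicator_of_mem hm]
    have : Prod.mk x ⁻¹' To s t h = Ioo (s * x) (t * x) := by
      ext y
      simp [To, hm.1, lt_of_le_of_ne hm.2 hx]
    rw [this, Real.volume_Ioo]
    congr 1; ring
  · rw [indicator_of_notMem hm]
    have : Prod.mk x ⁻¹' To s t h = ∅ := by
      ext y
      simp only [To, mem_preimage, mem_ofPred_eq, mem_empty_iff_false, iff_false]
      rintro ⟨h1, h2, -⟩
      exact hm ⟨h1, h2.le⟩
    rw [this, measure_empty]

end Vale.Agent.P243
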