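import Vale.Agent.P243.Gram
import Vale.Agent.P243.Tri

/-!
# P243: every shadow of the regular tetrahedron has area at least `2 √2`
-/

open MeasureTheory
open scoped BigOperators

namespace Vale.Agent.P243.Amin

/-- base points of the four faces -/
noncomputable def fC : Fin 4 → E3 := ![pt 1 0 0, pt (-1) 0 0, pt 0 1 1, pt 0 (-1) 1]

/-- first edge vectors -/
noncomputable def fA : Fin 4 → E3 := ![dr (-1) 0 1, dr 1 0 1, dr 0 (-1) (-1), dr 0 1 (-1)]

/-- second edge vectors -/
noncomputable def fB : Fin 4 → E3 := ![dr 0 1 0, dr 0 1 0, dr 1 0 0, dr 1 0 0]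

/-- outer normals -/
noncomputable def fN : Fin 4 → E3 → ℝ :=
  ![fun p => (p 1 + p 2) / 2 - p 0 / 2, fun p => -(p 1 + p 2) / 2 - p 0 / 2,
    fun p => (p 1 - p 2) / 2 + p 0 / 2, fun p => -(p 1 - p 2) / 2 + p 0 / 2]

/-- parametrisation of the faces -/
noncomputable def fp (i : Fin 4) (q : ℝ × ℝ) : E3 := fC i + q.1 • fA i + q.2 • fB i

lemma fN_sub (i : Fin 4) (p q : E3) : fN i (p - q) = fN i p - fN i q := by
  fin_cases i <;> simp [fN] <;> ring

lemma fN_smul (i : Fin 4) (c : ℝ) (p : E3) : fN i (c • p) = c * fN i p := by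
  fin_cases i <;> simp [fN] <;> ring

lemma fN_fp_self (i : Fin 4) (q : ℝ × ℝ) : fN i (fp i q) = 1 / 2 := by
  fin_cases i <;> simp [fN, fp, fC, fA, fB, pt, dr] <;> ring

lemma fN_fp_lt (i j : Fin 4) (hij : i ≠ j) (q : ℝ × ℝ) (hq : q ∈ To (-1) 1 1) :
    fN j (fp i q) < 1 / 2 := by
  obtain ⟨h1, h2, h3, h4⟩ := hq
  fin_cases i <;> fin_cases j <;> first | exact absurd rfl hij | skip
  all_goals (simp [fN, fp, fC, fA, fB, pt, dr]; nlinarith)

lemma fp_mem (i : Fin 4) (q : ℝ × ℝ) (hq : q ∈ To (-1) 1 1) : fp i q ∈ tetra := by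
  obtain ⟨h1, h2, h3, h4⟩ := hq
  fin_cases i
  · refine ⟨1 - q.1, q.2, q.1, ?_, ?_, ?_⟩
    · rw [abs_le]; constructor <;> linarith
    · rw [abs_le]; constructor <;> linarith
    · ext k; fin_cases k <;> simp [fp, fC, fA, fB, pt, dr] <;> ring
  · refine ⟨-(1 - q.1), q.2, q.1, ?_, ?_, ?_⟩
    · rw [abs_le]; constructor <;> linarith
    · rw [abs_le]; constructor <;> linarith
    · ext k; fin_cases k <;> simp [fp, fC, fA, fB, pt, dr] <;> ring
  · refine ⟨q.2, 1 - q.1, 1 - q.1, ?_, ?_, ?_⟩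
    · rw [abs_le]; constructor <;> linarith
    · rw [abs_le]; constructor <;> linarith
    · ext k; fin_cases k <;> simp [fp, fC, fA, fB, pt, dr] <;> ring
  · refine ⟨q.2, -(1 - q.1), 1 - q.1, ?_, ?_, ?_⟩
    · rw [abs_le]; constructor <;> linarith
    · rw [abs_le]; constructor <;> linarith
    · ext k; fin_cases k <;> simp [fp, fC, fA, fB, pt, dr] <;> ring

lemma abs_tri (i : Fin 4) (u : E3) : |tri (fA i) (fB i) u| = 4 * |fN i u| := by
  have h : tri (fA i) (fB i) u = 4 * fN i u ∨ tri (fA i) (fB i) u = -(4 * fN i u) := by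
    fin_cases i
    · right; simp [tri, fN, fA, fB, dr]; ring
    · left; simp [tri, fN, fA, fB, dr]; ring
    · right; simp [tri, fN, fA, fB, dr]; ring
    · left; simp [tri, fN, fA, fB, dr]; ring
  rcases h with h | h
  · rw [h, abs_mul, abs_of_pos (by norm_num : (0 : ℝ) < 4)]
  · rw [h, abs_neg, abs_mul, abs_of_pos (by norm_num : (0 : ℝ) < 4)]

lemma sq_norm (u : E3) : ‖u‖ ^ 2 = u 0 ^ 2 + u 1 ^ 2 + u 2 ^ 2 := by
  rw [EuclideanSpace.norm_sq_eq, Fin.sum_univ_three]
  simp

lemma max_eq (a : ℝ) : 2 * max a 0 = |a| + a := by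
  rcases le_total a 0 with h | h
  · rw [max_eq_right h, abs_of_nonpos h]; ring
  · rw [max_eq_left h, abs_of_nonneg h]; ring

/-- the total area of the upper faces -/
lemma sum_ge (u : E3) (hu : ‖u‖ = 1) :
    2 * Real.sqrt 2 ≤ ∑ i : Fin 4, 4 * max (fN i u) 0 := by
  have h1 : u 0 ^ 2 + u 1 ^ 2 + u 2 ^ 2 = 1 := by rw [← sq_norm, hu]; norm_num
  have hsum : 2 * ∑ i : Fin 4, max (fN i u) 0 = ∑ i : Fin 4, |fN i u| := by
    rw [Finset.mul_sum]
    simp_rw [max_eq]
    rw [Finset.sum_add_distrib]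
    have : ∑ i : Fin 4, fN i u = 0 := by
      rw [Fin.sum_univ_four]
      simp [fN]
      ring
    rw [this, add_zero]
  have key : Real.sqrt 2 ≤ ∑ i : Fin 4, |fN i u| := by
    rw [Fin.sum_univ_four]
    have e0 : fN 0 u = (u 1 + u 2) / 2 - u 0 / 2 := rfl
    have e1 : fN 1 u = -(u 1 + u 2) / 2 - u 0 / 2 := rfl
    have e2 : fN 2 u = (u 1 - u 2) / 2 + u 0 / 2 := rfl
    have e3 : fN 3 u = -(u 1 - u 2) / 2 + u 0 / 2 := rfl
    rw [e0, e1, e2, e3]
    set X := (u 1 + u 2) / 2 with hX
    set Y := (u 1 - u 2) / 2 with hY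
    set Z := u 0 / 2 with hZ
    have hn1 : -(u 1 + u 2) / 2 = -X := by rw [hX]; ring
    have hn2 : -(u 1 - u 2) / 2 = -Y := by rw [hY]; ring
    rw [hn1, hn2]
    have hq : 4 * X ^ 2 + 4 * Y ^ 2 + 8 * Z ^ 2 = 2 := by
      rw [hX, hY, hZ]; linarith
    have a1 : 2 * |X| ≤ |X - Z| + |-X - Z| := by
      rw [← abs_neg (-X - Z)]
      have := abs_add_le (X - Z) (-(-X - Z))
      have e : X - Z + -(-X - Z) = 2 * X := by ring
      rw [e, abs_mul, abs_two] at this
      exact this
    have a2 : 2 * |Z| ≤ |X - Z| + |-X - Z| := by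
      have := abs_add_le (X - Z) (-X - Z)
      have e : X - Z + (-X - Z) = -(2 * Z) := by ring
      rw [e, abs_neg, abs_mul, abs_two] at this
      exact this
    have b1 : 2 * |Y| ≤ |Y + Z| + |-Y + Z| := by
      rw [← abs_neg (-Y + Z)]
      have := abs_add_le (Y + Z) (-(-Y + Z))
      have e : Y + Z + -(-Y + Z) = 2 * Y := by ring
      rw [e, abs_mul, abs_two] at this
      exact this
    have b2 : 2 * |Z| ≤ |Y + Z| + |-Y + Z| := by
      have := abs_add_le (Y + Z) (-Y + Z)
      have e : Y + Z + (-Y + Z) = 2 * Z := by ring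
      rw [e, abs_mul, abs_two] at this
      exact this
    apply Real.sqrt_le_iff.mpr
    constructor
    · positivity
    · have a3 : (2 * |X|) ^ 2 ≤ (|X - Z| + |-X - Z|) ^ 2 := by gcongr
      have b3 : (2 * |Y|) ^ 2 ≤ (|Y + Z| + |-Y + Z|) ^ 2 := by gcongr
      have c3 : (2 * |Z|) * (2 * |Z|) ≤ (|X - Z| + |-X - Z|) * (|Y + Z| + |-Y + Z|) := by gcongr
      have hx := sq_abs X
      have hy := sq_abs Y
      have hz := sq_abs Z
      nlinarith
  rw [← Finset.mul_sum]
  linarith

lemma mem_ker {u p q : E3} (h : (perp u).orthogonalProjectionOnto p =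
    (perp u).orthogonalProjectionOnto q) : ∃ c : ℝ, p - q = c • u := by
  have h1 : (perp u).orthogonalProjectionOnto (p - q) = 0 := by rw [map_sub, h, sub_self]
  rw [Submodule.orthogonalProjectionOnto_eq_zero_iff, Submodule.orthogonal_orthogonal,
    Submodule.mem_span_singleton] at h1
  obtain ⟨c, hc⟩ := h1
  exact ⟨c, hc.symm⟩

/-- shadows of the upper faces -/
noncomputable def Sh (u : E3) (i : Fin 4) : Set (perp u) :=
  if 0 < fN i u then
    (fun q : ℝ × ℝ => (perp u).orthogonalProjectionOnto (fC i + q.1 • fA i + q.2 • fB i)) ''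
      To (-1) 1 1
  else ∅

lemma Sh_subset (u : E3) (i : Fin 4) : Sh u i ⊆ shadow u tetra := by
  unfold Sh
  split_ifs with h
  · rintro _ ⟨q, hq, rfl⟩
    exact ⟨fp i q, fp_mem i q hq, rfl⟩
  · exact Set.empty_subset _

lemma Sh_disjoint (u : E3) (i j : Fin 4) (hij : i ≠ j) : Disjoint (Sh u i) (Sh u j) := by
  rw [Set.disjoint_left]
  intro p hp hp'
  unfold Sh at hp hp'
  split_ifs at hp with hi
  · split_ifs at hp' with hj
    · obtain ⟨q, hq, e1⟩ := hp
      obtain ⟨q', hq', e2⟩ := hp'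
      obtain ⟨c, hc⟩ := mem_ker (u := u) (p := fp i q) (q := fp j q') (e1.trans e2.symm)
      have h1 := fN_sub i (fp i q) (fp j q')
      have h2 := fN_sub j (fp i q) (fp j q')
      rw [hc, fN_smul, fN_fp_self] at h1
      rw [hc, fN_smul, fN_fp_self] at h2
      have h3 := fN_fp_lt i j hij q hq
      have h4 := fN_fp_lt j i hij.symm q' hq'
      have h5 : 0 < c * fN i u := by linarith
      have h6 : c * fN j u < 0 := by linarith
      have h7 : 0 < c := by
        by_contra hcn
        push Not at hcn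
        nlinarith
      nlinarith
    · exact hp'
  · exact hp

lemma Sh_meas (u : E3) (i : Fin 4) : MeasurableSet (Sh u i) := by
  unfold Sh
  split_ifs with h
  · have hT : MeasurableSet (To (-1) 1 1) := by
      have : IsOpen (To (-1) 1 1) := by
        unfold To
        apply IsOpen.and (isOpen_lt continuous_const continuous_fst)
        apply IsOpen.and (isOpen_lt continuous_fst continuous_const)
        apply IsOpen.and (isOpen_lt (by fun_prop) (by fun_prop))
        exact isOpen_lt (by fun_prop) (by fun_prop)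
      exact this.measurableSet
    apply hT.image_of_continuousOn_injOn
    · apply Continuous.continuousOn
      fun_prop
    · intro q hq q' hq' e
      obtain ⟨c, hc⟩ := mem_ker (u := u) (p := fp i q) (q := fp i q') e
      have h1 := fN_sub i (fp i q) (fp i q')
      rw [hc, fN_smul, fN_fp_self, fN_fp_self, sub_self] at h1
      have hc0 : c = 0 := by
        rcases mul_eq_zero.mp h1 with h2 | h2
        · exact h2
        · exact absurd h2 h.ne'
      rw [hc0, zero_smul, sub_eq_zero] at hc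
      have k0 := congrArg (fun p : E3 => p 0) hc
      have k1 := congrArg (fun p : E3 => p 1) hc
      have k2 := congrArg (fun p : E3 => p 2) hc
      have : q.1 = q'.1 ∧ q.2 = q'.2 := by
        revert k0 k1 k2
        fin_cases i <;> simp [fp, fC, fA, fB, pt, dr] <;> intro k0 k1 k2 <;>
          constructor <;> linarith
      exact Prod.ext this.1 this.2
  · exact MeasurableSet.empty

lemma Sh_vol (u : E3) (hu : ‖u‖ = 1) (i : Fin 4) :
    volume (Sh u i) = ENNReal.ofReal (4 * max (fN i u) 0) := by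
  unfold Sh
  split_ifs with h
  · rw [gram u hu, vol_To (-1) 1 1 (by norm_num) (by norm_num), abs_tri, abs_of_pos h,
      max_eq_left h.le]
    norm_num
  · rw [measure_empty, max_eq_right (not_lt.mp h)]
    simp

end Vale.Agent.P243.Amin

namespace Vale.Agent.P243

open Amin

theorem amin (u : E3) (hu : ‖u‖ = 1) :
    ENNReal.ofReal (2 * Real.sqrt 2) ≤ volume (shadow u tetra) := by
  calc ENNReal.ofReal (2 * Real.sqrt 2)
      ≤ ENNReal.ofReal (∑ i : Fin 4, 4 * max (fN i u) 0) := ENNReal.ofReal_le_ofReal (sum_ge u hu)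
    _ = ∑ i : Fin 4, ENNReal.ofReal (4 * max (fN i u) 0) := by
        rw [ENNReal.ofReal_sum_of_nonneg]
        intro i _
        positivity
    _ = ∑ i : Fin 4, volume (Sh u i) := by
        refine Finset.sum_congr rfl fun i _ => ?_
        rw [Sh_vol u hu]
    _ = volume (⋃ i ∈ (Finset.univ : Finset (Fin 4)), Sh u i) := by
        rw [measure_biUnion_finset]
        · intro i _ j _ hij
          exact Sh_disjoint u i j hij
        · intro i _
          exact Sh_meas u i
    _ ≤ volume (shadow u tetra) := by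
        apply measure_mono
        apply Set.iUnion₂_subset
        intro i _
        exact Sh_subset u i

end Vale.Agent.P243
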