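import Vale.Agent.P243.Gram
import Vale.Agent.P243.Tri

/-!
# P243: the bases of the cylinders
-/

open MeasureTheory
open scoped BigOperators

namespace Vale.Agent.P243

/-- directions of the two bundles -/
noncomputable def w1 (k : ℕ) : E3 := dr 1 (ak k) (bk k)

noncomputable def w2 (k : ℕ) : E3 := dr (ak k) (-1) (-(bk k))

noncomputable def u1 (k : ℕ) : E3 := ‖w1 k‖⁻¹ • w1 k

noncomputable def u2 (k : ℕ) : E3 := ‖w2 k‖⁻¹ • w2 k

/-- base of the `k`-th cylinder of the first bundle -/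
noncomputable def B1 (k : ℕ) : Set (perp (u1 k)) :=
  (fun q : ℝ × ℝ => (perp (u1 k)).orthogonalProjectionOnto (pt 0 0 0 + q.1 • dr 0 0 1
    + q.2 • dr 0 1 0)) '' T (tk k) (tk (k + 1)) (hk k)

/-- base of the `k`-th cylinder of the second bundle -/
noncomputable def B2 (k : ℕ) : Set (perp (u2 k)) :=
  (fun q : ℝ × ℝ => (perp (u2 k)).orthogonalProjectionOnto (pt 0 0 1 + q.1 • dr 0 0 (-1)
    + q.2 • dr 1 0 0)) '' T (tk k) (tk (k + 1)) (hk k)

namespace BaseAux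

theorem norm_dr (x y z : ℝ) : ‖dr x y z‖ = Real.sqrt 2 * Real.sqrt (x ^ 2 + y ^ 2 + 2 * z ^ 2) := by
  rw [EuclideanSpace.norm_eq, ← Real.sqrt_mul (by norm_num), Fin.sum_univ_three]
  congr 1
  simp only [dr, Real.norm_eq_abs, sq_abs]
  simp
  ring

theorem norm_w1 (k : ℕ) : ‖w1 k‖ = Real.sqrt 2 * Real.sqrt (1 + ak k ^ 2 + 2 * bk k ^ 2) := by
  rw [w1, norm_dr]
  norm_num

theorem norm_w2 (k : ℕ) : ‖w2 k‖ = Real.sqrt 2 * Real.sqrt (1 + ak k ^ 2 + 2 * bk k ^ 2) := by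
  rw [w2, norm_dr]
  congr 2
  ring

theorem r_pos (k : ℕ) : 0 < Real.sqrt (1 + ak k ^ 2 + 2 * bk k ^ 2) := by
  apply Real.sqrt_pos.2
  positivity

theorem norm_w1_pos (k : ℕ) : 0 < ‖w1 k‖ := by
  rw [norm_w1]
  have := r_pos k
  positivity

theorem norm_w2_pos (k : ℕ) : 0 < ‖w2 k‖ := by
  rw [norm_w2]
  have := r_pos k
  positivity

theorem tri_smul (A B C : E3) (c : ℝ) : tri A B (c • C) = c * tri A B C := by
  simp only [tri, PiLp.smul_apply, smul_eq_mul]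
  ring

theorem tk_le (k : ℕ) : tk (k + 1) - tk k = 2 / NN := by
  unfold tk
  push_cast
  ring

theorem NN_pos : (0 : ℝ) < NN := by
  unfold NN; norm_num

theorem hk_nonneg (k : ℕ) : 0 ≤ hk k := by
  unfold hk
  have := NN_pos
  positivity

theorem vol_T' (k : ℕ) : volume (T (tk k) (tk (k + 1)) (hk k)) =
    ENNReal.ofReal (1 / NN * hk k ^ 2) := by
  have h1 := tk_le k
  have h2 := NN_pos
  rw [vol_T _ _ _ (by have : (0 : ℝ) < 2 / NN := by positivity
                      linarith) (hk_nonneg k), h1]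
  congr 1
  ring

theorem fin (k : ℕ) (t : ℝ) (ht : |t| = 4) (nw : ℝ)
    (hnw : nw = Real.sqrt 2 * Real.sqrt (1 + ak k ^ 2 + 2 * bk k ^ 2)) :
    ENNReal.ofReal |nw⁻¹ * t| * ENNReal.ofReal (1 / NN * hk k ^ 2) =
    ENNReal.ofReal (2 * Real.sqrt 2 * (1 / NN * (hk k ^ 2 /
      Real.sqrt (1 + ak k ^ 2 + 2 * bk k ^ 2)))) := by
  rw [← ENNReal.ofReal_mul (abs_nonneg _)]
  congr 1
  have h0 := r_pos k
  have h2 : (0 : ℝ) < Real.sqrt 2 := by positivity
  have h3 : Real.sqrt 2 * Real.sqrt 2 = 2 := Real.mul_self_sqrt (by norm_num)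
  have h4 := NN_pos
  rw [abs_mul, ht, abs_of_pos (inv_pos.2 (by rw [hnw]; positivity)), hnw]
  generalize Real.sqrt (1 + ak k ^ 2 + 2 * bk k ^ 2) = R at *
  generalize Real.sqrt 2 = S at *
  generalize (NN : ℝ) = M at *
  field_simp
  nlinarith

theorem compact_T (s t h : ℝ) : IsCompact (T s t h) := by
  have h1 : IsClosed (T s t h) := by
    have : T s t h = {q : ℝ × ℝ | 0 ≤ q.1} ∩ {q | q.1 ≤ h} ∩ {q | s * q.1 ≤ q.2} ∩
        {q | q.2 ≤ t * q.1} := by
      ext q; simp [T, and_assoc]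
    rw [this]
    refine ((IsClosed.inter ?_ ?_).inter ?_).inter ?_
    · exact isClosed_le continuous_const continuous_fst
    · exact isClosed_le continuous_fst continuous_const
    · exact isClosed_le (continuous_const.mul continuous_fst) continuous_snd
    · exact isClosed_le continuous_snd (continuous_const.mul continuous_fst)
  refine IsCompact.of_isClosed_subset
    (isCompact_Icc (a := ((0 : ℝ), -(|s| * h))) (b := (h, |t| * h))) h1 ?_
  rintro ⟨a, b⟩ ⟨h1, h2, h3, h4⟩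
  simp only at h1 h2 h3 h4
  have h5 : -(|s| * h) ≤ s * a := by
    have : -(|s| * h) ≤ -(|s| * a) := by
      have := mul_le_mul_of_nonneg_left h2 (abs_nonneg s)
      linarith
    have h6 : -(|s| * a) ≤ s * a := by
      have := mul_le_mul_of_nonneg_right (neg_abs_le s) h1
      linarith
    linarith
  have h6 : t * a ≤ |t| * h :=
    (mul_le_mul_of_nonneg_right (le_abs_self t) h1).trans
      (mul_le_mul_of_nonneg_left h2 (abs_nonneg t))
  exact ⟨⟨h1, h5.trans h3⟩, ⟨h2, h4.trans h6⟩⟩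

theorem cont (u C A B : E3) : Continuous (fun q : ℝ × ℝ =>
    (perp u).orthogonalProjectionOnto (C + q.1 • A + q.2 • B)) := by
  fun_prop

/-- a point is its projection plus a multiple of `u` -/
theorem decomp (u : E3) (P : E3) :
    ∃ r : ℝ, P = ((perp u).orthogonalProjectionOnto P : E3) + r • u := by
  have h1 : P - (perp u).starProjection P ∈ (perp u)ᗮ :=
    Submodule.sub_starProjection_mem_orthogonal P
  rw [Submodule.orthogonal_orthogonal, Submodule.mem_span_singleton] at h1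
  obtain ⟨r, hr⟩ := h1
  refine ⟨r, ?_⟩
  rw [hr, Submodule.starProjection_apply]
  simp

theorem mem_cyl (w P X : E3) (hw : 0 < ‖w‖) (x : ℝ) (B : Set (perp (‖w‖⁻¹ • w)))
    (hB : (perp (‖w‖⁻¹ • w)).orthogonalProjectionOnto P ∈ B) (hX : X = P + x • w) :
    X ∈ cylinder (‖w‖⁻¹ • w) B := by
  obtain ⟨r, hr⟩ := decomp (‖w‖⁻¹ • w) P
  refine ⟨_, hB, r + x * ‖w‖, ?_⟩
  rw [add_smul, ← add_assoc, ← hr, hX, smul_smul, mul_assoc, mul_inv_cancel₀ hw.ne', mul_one]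

end BaseAux

open BaseAux

theorem norm_u1 (k : ℕ) : ‖u1 k‖ = 1 := by
  rw [u1, norm_smul, norm_inv, norm_norm, inv_mul_cancel₀ (norm_w1_pos k).ne']

theorem norm_u2 (k : ℕ) : ‖u2 k‖ = 1 := by
  rw [u2, norm_smul, norm_inv, norm_norm, inv_mul_cancel₀ (norm_w2_pos k).ne']

theorem vol_B1 (k : ℕ) (hk' : k < NN) : volume (B1 k) =
    ENNReal.ofReal (2 * Real.sqrt 2 * (1 / NN * (hk k ^ 2 /
      Real.sqrt (1 + ak k ^ 2 + 2 * bk k ^ 2)))) := by
  rw [B1, gram (u1 k) (norm_u1 k), vol_T', u1, tri_smul]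
  refine fin k _ ?_ _ (norm_w1 k)
  have : tri (dr 0 0 1) (dr 0 1 0) (w1 k) = -4 ∨ tri (dr 0 0 1) (dr 0 1 0) (w1 k) = 4 := by
    left
    simp only [tri, dr, w1]
    simp
    ring
  rcases this with h | h <;> rw [h] <;> norm_num

theorem vol_B2 (k : ℕ) (hk' : k < NN) : volume (B2 k) =
    ENNReal.ofReal (2 * Real.sqrt 2 * (1 / NN * (hk k ^ 2 /
      Real.sqrt (1 + ak k ^ 2 + 2 * bk k ^ 2)))) := by
  rw [B2, gram (u2 k) (norm_u2 k), vol_T', u2, tri_smul]
  refine fin k _ ?_ _ (norm_w2 k)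
  have : tri (dr 0 0 (-1)) (dr 1 0 0) (w2 k) = -4 ∨ tri (dr 0 0 (-1)) (dr 1 0 0) (w2 k) = 4 := by
    right
    simp only [tri, dr, w2]
    simp
    ring
  rcases this with h | h <;> rw [h] <;> norm_num

theorem meas_B1 (k : ℕ) : MeasurableSet (B1 k) :=
  ((compact_T _ _ _).image (cont _ _ _ _)).measurableSet

theorem meas_B2 (k : ℕ) : MeasurableSet (B2 k) :=
  ((compact_T _ _ _).image (cont _ _ _ _)).measurableSet

theorem mem_cyl1 (k : ℕ) (x y z : ℝ)
    (h : (z - bk k * x, y - ak k * x) ∈ T (tk k) (tk (k + 1)) (hk k)) :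
    pt x y z ∈ cylinder (u1 k) (B1 k) := by
  refine mem_cyl (w1 k) (pt 0 0 0 + (z - bk k * x) • dr 0 0 1 + (y - ak k * x) • dr 0 1 0)
    (pt x y z) (norm_w1_pos k) x (B1 k) ⟨_, h, rfl⟩ ?_
  ext i
  fin_cases i <;> simp [pt, dr, w1] <;> ring

theorem mem_cyl2 (k : ℕ) (x y z : ℝ)
    (h : (1 - z + bk k * y, x + ak k * y) ∈ T (tk k) (tk (k + 1)) (hk k)) :
    pt x y z ∈ cylinder (u2 k) (B2 k) := by
  refine mem_cyl (w2 k) (pt 0 0 1 + (1 - z + bk k * y) • dr 0 0 (-1) + (x + ak k * y) • dr 1 0 0)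
    (pt x y z) (norm_w2_pos k) (-y) (B2 k) ⟨_, h, rfl⟩ ?_
  ext i
  fin_cases i <;> simp [pt, dr, w2] <;> ring

end Vale.Agent.P243
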