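import Vale.Agent.P243.Defs

/-!
# P243: the tetrahedron is a convex body
-/

open MeasureTheory
open scoped BigOperators

namespace Vale.Agent.P243

namespace BodyAux

theorem mem_tetra_iff (p : E3) :
    p ∈ tetra ↔ |p 1 + p 2| ≤ 1 + p 0 ∧ |p 1 - p 2| ≤ 1 - p 0 := by
  constructor
  · rintro ⟨x, y, z, hx, hy, rfl⟩
    have h0 : (pt x y z) 0 = 1 - 2 * z := rfl
    have h1 : (pt x y z) 1 = x + y := rfl
    have h2 : (pt x y z) 2 = x - y := rfl
    rw [h0, h1, h2]
    rw [abs_le] at hx hy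
    constructor
    · rw [abs_le]; constructor <;> linarith [hx.1, hx.2]
    · rw [abs_le]; constructor <;> linarith [hy.1, hy.2]
  · rintro ⟨h1, h2⟩
    rw [abs_le] at h1 h2
    refine ⟨(p 1 + p 2) / 2, (p 1 - p 2) / 2, (1 - p 0) / 2, ?_, ?_, ?_⟩
    · rw [abs_le]; constructor <;> linarith [h1.1, h1.2]
    · rw [abs_le]; constructor <;> linarith [h2.1, h2.2]
    · ext i
      fin_cases i
      · show p 0 = 1 - 2 * ((1 - p 0) / 2); ring
      · show p 1 = (p 1 + p 2) / 2 + (p 1 - p 2) / 2; ring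
      · show p 2 = (p 1 + p 2) / 2 - (p 1 - p 2) / 2; ring

theorem cont (i : Fin 3) : Continuous fun p : E3 => p i := by fun_prop

end BodyAux

open BodyAux

theorem tetra_convex : Convex ℝ tetra := by
  intro p hp q hq a b ha hb hab
  rw [mem_tetra_iff] at hp hq ⊢
  obtain ⟨h1, h2⟩ := hp
  obtain ⟨h3, h4⟩ := hq
  rw [abs_le] at h1 h2 h3 h4
  have e : ∀ i, (a • p + b • q) i = a * p i + b * q i := fun i => rfl
  rw [e, e, e]
  constructor
  · rw [abs_le]
    constructor <;> nlinarith [mul_le_mul_of_nonneg_left h1.1 ha, mul_le_mul_of_nonneg_left h1.2 ha,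
      mul_le_mul_of_nonneg_left h3.1 hb, mul_le_mul_of_nonneg_left h3.2 hb]
  · rw [abs_le]
    constructor <;> nlinarith [mul_le_mul_of_nonneg_left h2.1 ha, mul_le_mul_of_nonneg_left h2.2 ha,
      mul_le_mul_of_nonneg_left h4.1 hb, mul_le_mul_of_nonneg_left h4.2 hb]

theorem tetra_compact : IsCompact tetra := by
  have hcl : IsClosed tetra := by
    have : tetra = {p : E3 | |p 1 + p 2| ≤ 1 + p 0} ∩ {p : E3 | |p 1 - p 2| ≤ 1 - p 0} := by
      ext p
      exact mem_tetra_iff p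
    rw [this]
    apply IsClosed.inter
    · exact isClosed_le (by fun_prop) (by fun_prop)
    · exact isClosed_le (by fun_prop) (by fun_prop)
  refine Metric.isCompact_of_isClosed_isBounded hcl ?_
  rw [isBounded_iff_forall_norm_le]
  refine ⟨2, ?_⟩
  intro p hp
  rw [mem_tetra_iff] at hp
  obtain ⟨h1, h2⟩ := hp
  rw [abs_le] at h1 h2
  have h3 : ‖p‖ ^ 2 ≤ 4 := by
    rw [EuclideanSpace.norm_sq_eq, Fin.sum_univ_three]
    simp only [Real.norm_eq_abs, sq_abs]
    nlinarith [h1.1, h1.2, h2.1, h2.2, mul_nonneg (sub_nonneg.2 h1.1) (sub_nonneg.2 h1.2),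
      mul_nonneg (sub_nonneg.2 h2.1) (sub_nonneg.2 h2.2)]
  nlinarith [norm_nonneg p]

theorem tetra_interior : (interior tetra).Nonempty := by
  refine ⟨0, ?_⟩
  rw [mem_interior]
  refine ⟨{p : E3 | |p 1 + p 2| < 1 + p 0} ∩ {p : E3 | |p 1 - p 2| < 1 - p 0}, ?_, ?_, ?_⟩
  · rintro p ⟨h1, h2⟩
    rw [mem_tetra_iff]
    exact ⟨le_of_lt h1, le_of_lt h2⟩
  · exact (isOpen_lt (by fun_prop) (by fun_prop)).inter (isOpen_lt (by fun_prop) (by fun_prop))
  · constructor <;> simp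

end Vale.Agent.P243
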