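import Vale.Agent.P243.Defs

/-!
# P243: the total area of the bases
-/

open MeasureTheory
open scoped BigOperators

namespace Vale.Agent.P243

namespace CostAux

lemma ps2 (m : ℕ) : ∑ k ∈ Finset.range m, (-1 + (k : ℝ) / 10000) ^ 2 =
    (600060001 / 600000000) * (m : ℝ) ^ 1 +
      (-20001 / 200000000) * (m : ℝ) ^ 2 +
      (1 / 300000000) * (m : ℝ) ^ 3 := by
  induction m with
  | zero => norm_num
  | succ m ih =>
    rw [Finset.sum_range_succ, ih]
    push_cast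
    ring

lemma ps4 (m : ℕ) : ∑ k ∈ Finset.range m, (-1 + (k : ℝ) / 10000) ^ 4 =
    (300060002999999999 / 300000000000000000) * (m : ℝ) ^ 1 +
      (-200030001 / 1000000000000) * (m : ℝ) ^ 2 +
      (600060001 / 30000000000000000) * (m : ℝ) ^ 3 +
      (-20001 / 20000000000000000) * (m : ℝ) ^ 4 +
      (1 / 50000000000000000) * (m : ℝ) ^ 5 := by
  induction m with
  | zero => norm_num
  | succ m ih =>
    rw [Finset.sum_range_succ, ih]
    push_cast
    ring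

lemma ps6 (m : ℕ) : ∑ k ∈ Finset.range m, (-1 + (k : ℝ) / 10000) ^ 6 =
    (42012601049999997900000001 / 42000000000000000000000000) * (m : ℝ) ^ 1 +
      (-60015000999999999 / 200000000000000000000) * (m : ℝ) ^ 2 +
      (300060002999999999 / 6000000000000000000000000) * (m : ℝ) ^ 3 +
      (-200030001 / 40000000000000000000) * (m : ℝ) ^ 4 +
      (600060001 / 2000000000000000000000000) * (m : ℝ) ^ 5 +
      (-20001 / 2000000000000000000000000) * (m : ℝ) ^ 6 +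
      (1 / 7000000000000000000000000) * (m : ℝ) ^ 7 := by
  induction m with
  | zero => norm_num
  | succ m ih =>
    rw [Finset.sum_range_succ, ih]
    push_cast
    ring

lemma ps8 (m : ℕ) : ∑ k ∈ Finset.range m, (-1 + (k : ℝ) / 10000) ^ 8 =
    (3001200139999999300000001999999999 / 3000000000000000000000000000000000) * (m : ℝ) ^ 1 +
      (-2000700069999999766666667 / 5000000000000000000000000000) * (m : ℝ) ^ 2 +
      (42012601049999997900000001 / 450000000000000000000000000000000) * (m : ℝ) ^ 3 +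
      (-140035002333333331 / 10000000000000000000000000000) * (m : ℝ) ^ 4 +
      (2100420020999999993 / 1500000000000000000000000000000000) * (m : ℝ) ^ 5 +
      (-466736669 / 5000000000000000000000000000) * (m : ℝ) ^ 6 +
      (600060001 / 150000000000000000000000000000000) * (m : ℝ) ^ 7 +
      (-20001 / 200000000000000000000000000000000) * (m : ℝ) ^ 8 +
      (1 / 900000000000000000000000000000000) * (m : ℝ) ^ 9 := by
  induction m with
  | zero => norm_num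
  | succ m ih =>
    rw [Finset.sum_range_succ, ih]
    push_cast
    ring


/-- `1/√(1+v) ≤ 1 - v/2 + 3v²/8` -/
lemma inv_sqrt_le {v : ℝ} (hv : 0 ≤ v) :
    1 / Real.sqrt (1 + v) ≤ 1 - v / 2 + 3 * v ^ 2 / 8 := by
  have h1 : 0 < Real.sqrt (1 + v) := Real.sqrt_pos.mpr (by linarith)
  have h2 : 0 < 1 - v / 2 + 3 * v ^ 2 / 8 := by nlinarith [sq_nonneg (3 * v - 2)]
  rw [div_le_iff₀ h1]
  have h3 : 1 ≤ (1 - v / 2 + 3 * v ^ 2 / 8) ^ 2 * (1 + v) := by
    have e : (1 - v / 2 + 3 * v ^ 2 / 8) ^ 2 * (1 + v) =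
        1 + v ^ 3 * (5 / 8 - 15 / 64 * v + 9 / 64 * v ^ 2) := by ring
    rw [e]
    have : 0 ≤ v ^ 3 * (5 / 8 - 15 / 64 * v + 9 / 64 * v ^ 2) :=
      mul_nonneg (by positivity) (by nlinarith [sq_nonneg (v - 1)])
    linarith
  have h4 : Real.sqrt 1 ≤ Real.sqrt ((1 - v / 2 + 3 * v ^ 2 / 8) ^ 2 * (1 + v)) :=
    Real.sqrt_le_sqrt h3
  rw [Real.sqrt_one, Real.sqrt_mul (sq_nonneg _), Real.sqrt_sq h2.le] at h4
  exact h4

/-- one summand -/
lemma term_le (P : ℝ) (hP1 : -1 ≤ P) (hP2 : P ≤ 1) :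
    (1 / 2 + (1 / 12) ^ 2 * (P ^ 2 + P ^ 4) + 5 * (1 / 12) ^ 4 * P ^ 4 + 1 / 20000) ^ 2 /
      Real.sqrt (1 + (1 / 12 * (1 + P * (P + 1 / 10000))) ^ 2 +
        2 * (1 / 12 * (P + (P + 1 / 10000))) ^ 2) ≤
    55105 / 221184 + 78 / 1000000 - 277 / 165888 * P ^ 2 + 2177 / 331776 * P ^ 4
      - 13 / 165888 * P ^ 6 + 19 / 663552 * P ^ 8 := by
  have hX0 : 0 ≤ P ^ 2 := sq_nonneg P
  have hX1 : P ^ 2 ≤ 1 := by nlinarith
  obtain ⟨X, hX⟩ : ∃ X, X = P ^ 2 := ⟨_, rfl⟩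
  obtain ⟨v, hv⟩ : ∃ v, v = (1 / 12 * (1 + P * (P + 1 / 10000))) ^ 2 +
        2 * (1 / 12 * (P + (P + 1 / 10000))) ^ 2 := ⟨_, rfl⟩
  have hv0 : 0 ≤ v := by rw [hv]; positivity
  have hvl : 1 / 144 * (1 + 10 * X + X ^ 2) - 1 / 100000 ≤ v := by
    have e : v = 1 / 144 * (1 + 10 * X + X ^ 2) + 1 / 144 * (2 * (1 + P ^ 2) * P / 10000 +
        P ^ 2 / 10000 ^ 2 + 8 * P / 10000 + 2 / 10000 ^ 2) := by
      rw [hv, hX]; ring
    rw [e]
    have : -2 ≤ (1 + P ^ 2) * P := by nlinarith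
    nlinarith
  have hvu : v ≤ 1 / 3 := by
    rw [hv]
    nlinarith
  have hs := inv_sqrt_le hv0
  have e1 : 1 + (1 / 12 * (1 + P * (P + 1 / 10000))) ^ 2 +
        2 * (1 / 12 * (P + (P + 1 / 10000))) ^ 2 = 1 + v := by rw [hv]; ring
  have hv0e : 1 / 144 ≤ 1 / 144 * (1 + 10 * X + X ^ 2) := by
    rw [hX]
    nlinarith
  have hX0' : 0 ≤ X := by rw [hX]; exact hX0
  have hX1' : X ≤ 1 := by rw [hX]; exact hX1
  have hv0u : 1 / 144 * (1 + 10 * X + X ^ 2) ≤ 1 / 12 := by nlinarith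
  obtain ⟨V, hV⟩ : ∃ V, V = 1 / 144 * (1 + 10 * X + X ^ 2) := ⟨_, rfl⟩
  rw [← hV] at hvl hv0e hv0u
  have hφ : 1 - v / 2 + 3 * v ^ 2 / 8 ≤ 1 - V / 2 + 3 * V ^ 2 / 8 + 1 / 200000 := by
    have h1 : 0 ≤ (v - (V - 1 / 100000)) * (1 / 2 - 3 / 8 * (v + (V - 1 / 100000))) :=
      mul_nonneg (by linarith) (by linarith)
    have h2 : (V - 1 / 100000) ^ 2 ≤ V ^ 2 := by nlinarith
    nlinarith
  have hXi : ∀ i : ℕ, 0 ≤ X ^ i ∧ X ^ i ≤ 1 := fun i =>
    ⟨pow_nonneg hX0' i, pow_le_one₀ hX0' hX1'⟩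
  rw [e1, div_eq_mul_one_div]
  have hP4 : P ^ 4 = X ^ 2 := by rw [hX]; ring
  have hP6 : P ^ 6 = X ^ 3 := by rw [hX]; ring
  have hP8 : P ^ 8 = X ^ 4 := by rw [hX]; ring
  rw [hP4, hP6, hP8, ← hX]
  calc (1 / 2 + (1 / 12) ^ 2 * (X + X ^ 2) + 5 * (1 / 12) ^ 4 * X ^ 2 + 1 / 20000) ^ 2 *
        (1 / Real.sqrt (1 + v)) ≤
      (1 / 2 + (1 / 12) ^ 2 * (X + X ^ 2) + 5 * (1 / 12) ^ 4 * X ^ 2 + 1 / 20000) ^ 2 *
        (1 - V / 2 + 3 * V ^ 2 / 8 + 1 / 200000) :=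
        mul_le_mul_of_nonneg_left (hs.trans hφ) (sq_nonneg _)
    _ ≤ _ := by
        rw [hV]
        have a1 := hXi 1
        have a2 := hXi 2
        have a3 := hXi 3
        have a4 := hXi 4
        have a5 := hXi 5
        have a6 := hXi 6
        have a7 := hXi 7
        have a8 := hXi 8
        rw [pow_one] at a1
        linarith [a1.1, a1.2, a2.1, a2.2, a3.1, a3.2, a4.1, a4.2, a5.1, a5.2, a6.1, a6.2,
          a7.1, a7.2, a8.1, a8.2]

end CostAux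

open CostAux in
theorem cost' : ∑ k ∈ Finset.range NN,
    2 / NN * (hk k ^ 2 / Real.sqrt (1 + ak k ^ 2 + 2 * bk k ^ 2)) < 49993 / 100000 := by
  have key : ∀ k ∈ Finset.range NN,
      2 / (NN : ℝ) * (hk k ^ 2 / Real.sqrt (1 + ak k ^ 2 + 2 * bk k ^ 2)) ≤
      1 / 10000 * (55105 / 221184 + 78 / 1000000 - 277 / 165888 * (-1 + (k : ℝ) / 10000) ^ 2 +
        2177 / 331776 * (-1 + (k : ℝ) / 10000) ^ 4 - 13 / 165888 * (-1 + (k : ℝ) / 10000) ^ 6 +
        19 / 663552 * (-1 + (k : ℝ) / 10000) ^ 8) := by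
    intro k hk0
    have hkN : k < 20000 := Finset.mem_range.mp hk0
    have hkR : (k : ℝ) ≤ 20000 := by
      have : k ≤ 20000 := hkN.le
      exact_mod_cast this
    have hk0R : (0 : ℝ) ≤ k := Nat.cast_nonneg k
    have ht := term_le (-1 + (k : ℝ) / 10000) (by linarith [div_nonneg hk0R (by norm_num : (0:ℝ) ≤ 10000)])
      (by linarith)
    have e1 : tk k = -1 + (k : ℝ) / 10000 := by
      unfold tk NN
      push_cast
      ring
    have e2 : tk (k + 1) = (-1 + (k : ℝ) / 10000) + 1 / 10000 := by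
      unfold tk NN
      push_cast
      ring
    have e3 : (2 : ℝ) / (NN : ℝ) = 1 / 10000 := by
      unfold NN
      norm_num
    have e4 : (1 : ℝ) / (NN : ℝ) = 1 / 20000 := by
      unfold NN
      norm_num
    have e5 : hk k = 1 / 2 + (1 / 12) ^ 2 * ((-1 + (k : ℝ) / 10000) ^ 2 +
        (-1 + (k : ℝ) / 10000) ^ 4) + 5 * (1 / 12) ^ 4 * (-1 + (k : ℝ) / 10000) ^ 4 +
        1 / 20000 := by
      unfold hk gg
      rw [e1, e4]
    have e6 : ak k = 1 / 12 * (1 + (-1 + (k : ℝ) / 10000) *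
        ((-1 + (k : ℝ) / 10000) + 1 / 10000)) := by
      unfold ak gg
      rw [e1, e2]
    have e7 : bk k = 1 / 12 * ((-1 + (k : ℝ) / 10000) +
        ((-1 + (k : ℝ) / 10000) + 1 / 10000)) := by
      unfold bk gg
      rw [e1, e2]
    rw [e3, e5, e6, e7]
    exact mul_le_mul_of_nonneg_left ht (by norm_num)
  refine (Finset.sum_le_sum key).trans_lt ?_
  rw [← Finset.mul_sum]
  simp only [Finset.sum_add_distrib, Finset.sum_sub_distrib, ← Finset.mul_sum,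
    Finset.sum_const, Finset.card_range, nsmul_eq_mul]
  rw [ps2, ps4, ps6, ps8]
  unfold NN
  norm_num

theorem cost : ∑ k ∈ Finset.range NN,
    2 / NN * (hk k ^ 2 / Real.sqrt (1 + ak k ^ 2 + 2 * bk k ^ 2)) < 1 / 2 :=
  cost'.trans (by norm_num)

end Vale.Agent.P243
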