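import Vale.Agent.P243.Defs

/-!
# P243: the two bundles of cylinders cover the tetrahedron
-/

open MeasureTheory
open scoped BigOperators

namespace Vale.Agent.P243

namespace CoverAux

/-- a discrete intermediate value theorem -/
lemma disc_ivt (G : ℕ → ℝ) (N : ℕ) (hN : 0 < N) (h0 : 0 ≤ G 0) (h1 : G N ≤ 0) :
    ∃ k < N, 0 ≤ G k ∧ G (k + 1) ≤ 0 := by
  by_contra hcon
  push Not at hcon
  have key : ∀ k, k ≤ N → 0 ≤ G k := by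
    intro k
    induction k with
    | zero => intro _; exact h0
    | succ k ih =>
      intro hk
      exact (hcon k (by omega) (ih (by omega))).le
  have h2 := hcon (N - 1) (by omega) (key (N - 1) (by omega))
  rw [Nat.sub_add_cancel hN] at h2
  linarith

lemma tk_zero : tk 0 = -1 := by simp [tk]

lemma tk_NN : tk NN = 1 := by
  unfold tk NN
  norm_num

/-- step -/
noncomputable def dd : ℝ := 1 / 10000

lemma tk_succ (k : ℕ) : tk (k + 1) = tk k + dd := by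
  unfold tk NN dd
  push_cast
  ring

lemma tk_mem {k : ℕ} (hk : k < NN) : -1 ≤ tk k ∧ tk k ≤ 1 := by
  have h : (k : ℝ) ≤ 20000 := by
    have : k ≤ 20000 := by unfold NN at hk; omega
    exact_mod_cast this
  have h0 : (0 : ℝ) ≤ k := Nat.cast_nonneg k
  unfold tk NN
  push_cast
  constructor <;> linarith

lemma hk_eq (k : ℕ) : hk k = 1 / 2 + gg ^ 2 * (tk k ^ 2 + tk k ^ 4) + 5 * gg ^ 4 * tk k ^ 4 +
    dd / 2 := by
  unfold hk NN dd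
  push_cast
  ring

/-- every point of the cone `|y| ≤ z` lies over a wedge -/
lemma exists_wedge (x y z : ℝ) (hy : |y| ≤ z) :
    ∃ k < NN, 0 ≤ z - bk k * x ∧ tk k * (z - bk k * x) ≤ y - ak k * x ∧
      y - ak k * x ≤ tk (k + 1) * (z - bk k * x) := by
  obtain ⟨hy1, hy2⟩ := abs_le.mp hy
  obtain ⟨k, hk, h0, h1⟩ := disc_ivt (fun k => y - tk k * z - gg * x * (1 - tk k ^ 2)) NN
    (by unfold NN; norm_num) (by simp only [tk_zero]; nlinarith)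
    (by simp only [tk_NN]; nlinarith)
  have e1 : y - ak k * x - tk k * (z - bk k * x) = y - tk k * z - gg * x * (1 - tk k ^ 2) := by
    unfold ak bk
    ring
  have e2 : y - ak k * x - tk (k + 1) * (z - bk k * x) =
      y - tk (k + 1) * z - gg * x * (1 - tk (k + 1) ^ 2) := by
    unfold ak bk
    ring
  have e3 : dd * (z - bk k * x) = (y - tk k * z - gg * x * (1 - tk k ^ 2)) -
      (y - tk (k + 1) * z - gg * x * (1 - tk (k + 1) ^ 2)) := by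
    rw [← e1, ← e2, tk_succ]
    ring
  refine ⟨k, hk, ?_, by linarith, by linarith⟩
  have hd : (0 : ℝ) < dd := by unfold dd; norm_num
  by_contra hneg
  push Not at hneg
  have := mul_neg_of_pos_of_neg hd hneg
  linarith

/-- the exact (continuous) inequality -/
lemma F0_nonneg (P Q : ℝ) (hP : P ^ 2 ≤ 1) (hQ : Q ^ 2 ≤ 1) :
    0 ≤ (1 / 2 + gg ^ 2 * (P ^ 2 + P ^ 4) + 5 * gg ^ 4 * P ^ 4) *
        (1 - 2 * gg * P * Q + gg ^ 2 * (1 + Q ^ 2) * (1 - P ^ 2)) +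
      (1 / 2 + gg ^ 2 * (Q ^ 2 + Q ^ 4) + 5 * gg ^ 4 * Q ^ 4) *
        (1 + 2 * gg * P * Q + gg ^ 2 * (1 + P ^ 2) * (1 - Q ^ 2)) -
      1 - gg ^ 2 * (1 + P ^ 2) * (1 + Q ^ 2) := by
  have key : (1 / 2 + gg ^ 2 * (P ^ 2 + P ^ 4) + 5 * gg ^ 4 * P ^ 4) *
        (1 - 2 * gg * P * Q + gg ^ 2 * (1 + Q ^ 2) * (1 - P ^ 2)) +
      (1 / 2 + gg ^ 2 * (Q ^ 2 + Q ^ 4) + 5 * gg ^ 4 * Q ^ 4) *
        (1 + 2 * gg * P * Q + gg ^ 2 * (1 + P ^ 2) * (1 - Q ^ 2)) -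
      1 - gg ^ 2 * (1 + P ^ 2) * (1 + Q ^ 2) =
      gg ^ 2 * (((P ^ 2 - Q ^ 2) - gg * P * Q * (1 + P ^ 2 + Q ^ 2 + 5 * gg ^ 2 * (P ^ 2 + Q ^ 2))) ^ 2
        + gg ^ 2 * (5 * (P ^ 4 + Q ^ 4) -
          P ^ 2 * Q ^ 2 * (1 + P ^ 2 + Q ^ 2 + 5 * gg ^ 2 * (P ^ 2 + Q ^ 2)) ^ 2
          + (P ^ 2 + P ^ 4 + 5 * gg ^ 2 * P ^ 4) * (1 + Q ^ 2) * (1 - P ^ 2)
          + (Q ^ 2 + Q ^ 4 + 5 * gg ^ 2 * Q ^ 4) * (1 + P ^ 2) * (1 - Q ^ 2))) := by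
    ring
  rw [key]
  have hX : 0 ≤ P ^ 2 := sq_nonneg P
  have hY : 0 ≤ Q ^ 2 := sq_nonneg Q
  have hg : gg = 1 / 12 := rfl
  have hq : (1 + P ^ 2 + Q ^ 2 + 5 * gg ^ 2 * (P ^ 2 + Q ^ 2)) ≤ 3.1 := by
    rw [hg]
    nlinarith
  have hq0 : 0 ≤ (1 + P ^ 2 + Q ^ 2 + 5 * gg ^ 2 * (P ^ 2 + Q ^ 2)) := by
    rw [hg]
    nlinarith
  have hqq : (1 + P ^ 2 + Q ^ 2 + 5 * gg ^ 2 * (P ^ 2 + Q ^ 2)) ^ 2 ≤ 9.61 := by
    nlinarith
  have hprod : P ^ 2 * Q ^ 2 * (1 + P ^ 2 + Q ^ 2 + 5 * gg ^ 2 * (P ^ 2 + Q ^ 2)) ^ 2 ≤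
      P ^ 2 * Q ^ 2 * 9.61 := mul_le_mul_of_nonneg_left hqq (mul_nonneg hX hY)
  have h1 : 0 ≤ (P ^ 2 + P ^ 4 + 5 * gg ^ 2 * P ^ 4) * (1 + Q ^ 2) * (1 - P ^ 2) := by
    refine mul_nonneg (mul_nonneg ?_ (by linarith)) (by linarith)
    positivity
  have h2 : 0 ≤ (Q ^ 2 + Q ^ 4 + 5 * gg ^ 2 * Q ^ 4) * (1 + P ^ 2) * (1 - Q ^ 2) := by
    refine mul_nonneg (mul_nonneg ?_ (by linarith)) (by linarith)
    positivity
  have h3 : P ^ 2 * Q ^ 2 * 9.61 ≤ 5 * (P ^ 4 + Q ^ 4) := by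
    nlinarith [sq_nonneg (P ^ 2 - Q ^ 2), mul_nonneg hX hY]
  refine mul_nonneg (sq_nonneg _) (add_nonneg (sq_nonneg _) (mul_nonneg (sq_nonneg _) ?_))
  linarith

lemma abs_mul_le {x y X Y : ℝ} (hx : |x| ≤ X) (hy : |y| ≤ Y) : |x * y| ≤ X * Y := by
  rw [abs_mul]
  exact mul_le_mul hx hy (abs_nonneg _) ((abs_nonneg _).trans hx)

lemma H_bound {P : ℝ} (hP : |P| ≤ 1) :
    1 / 2 ≤ 1 / 2 + gg ^ 2 * (P ^ 2 + P ^ 4) + 5 * gg ^ 4 * P ^ 4 ∧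
      1 / 2 + gg ^ 2 * (P ^ 2 + P ^ 4) + 5 * gg ^ 4 * P ^ 4 ≤ 0.52 := by
  have h2 : P ^ 2 ≤ 1 := (sq_le_one_iff_abs_le_one P).mpr hP
  have h4 : P ^ 4 ≤ 1 := by
    have : P ^ 4 = P ^ 2 * P ^ 2 := by ring
    rw [this]
    exact mul_le_one₀ h2 (sq_nonneg P) h2
  have h20 : 0 ≤ P ^ 2 := sq_nonneg P
  have h40 : 0 ≤ P ^ 4 := by positivity
  have hg : gg = 1 / 12 := rfl
  rw [hg]
  constructor <;> norm_num <;> linarith

lemma A_bound {P : ℝ} (hP : |P| ≤ 1) : |gg * (1 + P ^ 2)| ≤ 0.1668 := by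
  have h2 : P ^ 2 ≤ 1 := (sq_le_one_iff_abs_le_one P).mpr hP
  have h20 : 0 ≤ P ^ 2 := sq_nonneg P
  have hg : gg = 1 / 12 := rfl
  rw [hg, abs_le]
  constructor <;> linarith

lemma dA_bound {P : ℝ} (hP : |P| ≤ 1) :
    |gg * (1 + P * (P + dd)) - gg * (1 + P ^ 2)| ≤ 0.0834 * dd := by
  have h : gg * (1 + P * (P + dd)) - gg * (1 + P ^ 2) = P * (gg * dd) := by ring
  rw [h]
  obtain ⟨h1, h2⟩ := abs_le.mp hP
  have hg : gg = 1 / 12 := rfl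
  have hd : dd = 1 / 10000 := rfl
  rw [hg, hd, abs_le]
  constructor <;> linarith

lemma a_bound {P : ℝ} (hP : |P| ≤ 1) : |gg * (1 + P * (P + dd))| ≤ 0.1668 := by
  have h2 : P ^ 2 ≤ 1 := (sq_le_one_iff_abs_le_one P).mpr hP
  have h20 : 0 ≤ P ^ 2 := sq_nonneg P
  obtain ⟨h3, h4⟩ := abs_le.mp hP
  have h : gg * (1 + P * (P + dd)) = gg * (1 + P ^ 2 + dd * P) := by ring
  have hg : gg = 1 / 12 := rfl
  have hd : dd = 1 / 10000 := rfl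
  rw [h, hg, hd, abs_le]
  constructor <;> linarith

lemma PX_bound {P : ℝ} (hP : |P| ≤ 1) : |P * (2 * gg * P)| ≤ 0.1668 := by
  have h2 : P ^ 2 ≤ 1 := (sq_le_one_iff_abs_le_one P).mpr hP
  have h20 : 0 ≤ P ^ 2 := sq_nonneg P
  have h : P * (2 * gg * P) = 2 * gg * P ^ 2 := by ring
  have hg : gg = 1 / 12 := rfl
  rw [h, hg, abs_le]
  constructor <;> linarith

lemma tb_bound {P X θ : ℝ} (hP : |P| ≤ 1) (hX : |X| ≤ 1) (hθ : |θ| ≤ dd) :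
    |(P + θ) * (gg * (X + (X + dd))) - P * (2 * gg * X)| ≤ 0.2501 * dd := by
  have h : (P + θ) * (gg * (X + (X + dd))) - P * (2 * gg * X) =
      gg * (2 * (X * θ) + dd * P + dd * θ) := by ring
  have h1 := abs_mul_le hX hθ
  obtain ⟨h2, h3⟩ := abs_le.mp h1
  obtain ⟨h4, h5⟩ := abs_le.mp hP
  obtain ⟨h6, h7⟩ := abs_le.mp hθ
  have hg : gg = 1 / 12 := rfl
  have hd : dd = 1 / 10000 := rfl
  rw [hd] at h2 h3 h6 h7
  rw [h, hg, hd, abs_le]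
  constructor <;> linarith

/-- `t b a' - P B A'` -/
lemma tba_bound {P X θ a' A' : ℝ} (hP : |P| ≤ 1) (hθ : |θ| ≤ dd) (ha' : |a'| ≤ 0.1668)
    (hd' : |a' - A'| ≤ 0.0834 * dd) (hX : X = P) :
    |(P + θ) * (gg * (X + (X + dd))) * a' - P * (2 * gg * X) * A'| ≤ 0.06 * dd := by
  subst hX
  have h : (X + θ) * (gg * (X + (X + dd))) * a' - X * (2 * gg * X) * A' =
      ((X + θ) * (gg * (X + (X + dd))) - X * (2 * gg * X)) * a' +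
        X * (2 * gg * X) * (a' - A') := by ring
  rw [h]
  refine (abs_add_le _ _).trans ?_
  have h1 := abs_mul_le (tb_bound hP hP hθ) ha'
  have h2 := abs_mul_le (PX_bound hP) hd'
  have hd : dd = 1 / 10000 := rfl
  rw [hd] at h1 h2 ⊢
  linarith

/-- the discretised inequality -/
lemma claim (P Q θ φ : ℝ) (hP : |P| ≤ 1) (hQ : |Q| ≤ 1)
    (hθ : |θ| ≤ dd) (hφ : |φ| ≤ dd) (a b a' b' HP HQ : ℝ)
    (ha : a = gg * (1 + P * (P + dd))) (hb : b = gg * (P + (P + dd)))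
    (ha' : a' = gg * (1 + Q * (Q + dd))) (hb' : b' = gg * (Q + (Q + dd)))
    (hHP : HP = 1 / 2 + gg ^ 2 * (P ^ 2 + P ^ 4) + 5 * gg ^ 4 * P ^ 4)
    (hHQ : HQ = 1 / 2 + gg ^ 2 * (Q ^ 2 + Q ^ 4) + 5 * gg ^ 4 * Q ^ 4) :
    1 + a * a' < (HP + dd / 2) * (1 + a * a' - (P + θ) * (b * a' + b')) +
      (HQ + dd / 2) * (1 + a * a' - (Q + φ) * (b' * a - b)) ∧
    0 ≤ 1 + a * a' - (P + θ) * (b * a' + b') ∧ 0 ≤ 1 + a * a' - (Q + φ) * (b' * a - b) := by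
  have hF := F0_nonneg P Q ((sq_le_one_iff_abs_le_one P).mpr hP)
    ((sq_le_one_iff_abs_le_one Q).mpr hQ)
  obtain ⟨HP1, HP2⟩ := H_bound hP
  obtain ⟨HQ1, HQ2⟩ := H_bound hQ
  rw [← hHP] at hF HP1 HP2
  rw [← hHQ] at hF HQ1 HQ2
  have aa := a_bound hP
  have aa' := a_bound hQ
  have daA := dA_bound hP
  have daA' := dA_bound hQ
  have aA := A_bound hP
  have f1 := tba_bound hP hθ aa' daA' rfl
  have f3 := tba_bound hQ hφ aa daA rfl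
  have f2 := tb_bound hP hQ hθ
  have f4 := tb_bound hQ hP hφ
  rw [← hb] at f1 f4
  rw [← hb'] at f2 f3
  rw [← ha] at aa daA f3
  rw [← ha'] at aa' daA' f1
  have e0 : |a * a' - gg * (1 + P ^ 2) * (gg * (1 + Q ^ 2))| ≤ 0.03 * dd := by
    have : a * a' - gg * (1 + P ^ 2) * (gg * (1 + Q ^ 2)) =
        (a - gg * (1 + P ^ 2)) * a' + gg * (1 + P ^ 2) * (a' - gg * (1 + Q ^ 2)) := by ring
    rw [this]
    refine (abs_add_le _ _).trans ?_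
    have h1 := abs_mul_le daA aa'
    have h2 := abs_mul_le aA daA'
    have hd : dd = 1 / 10000 := rfl
    rw [hd] at h1 h2 ⊢
    linarith
  -- names for the errors
  obtain ⟨E0, hE0⟩ : ∃ E0, a * a' - gg * (1 + P ^ 2) * (gg * (1 + Q ^ 2)) = E0 := ⟨_, rfl⟩
  obtain ⟨E1, hE1⟩ : ∃ E1, (P + θ) * b * a' - P * (2 * gg * P) * (gg * (1 + Q ^ 2)) = E1 :=
    ⟨_, rfl⟩
  obtain ⟨E2, hE2⟩ : ∃ E2, (P + θ) * b' - P * (2 * gg * Q) = E2 := ⟨_, rfl⟩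
  obtain ⟨E3, hE3⟩ : ∃ E3, (Q + φ) * b' * a - Q * (2 * gg * Q) * (gg * (1 + P ^ 2)) = E3 :=
    ⟨_, rfl⟩
  obtain ⟨E4, hE4⟩ : ∃ E4, (Q + φ) * b - Q * (2 * gg * P) = E4 := ⟨_, rfl⟩
  rw [hE0] at e0
  rw [hE1] at f1
  rw [hE2] at f2
  rw [hE3] at f3
  rw [hE4] at f4
  have c1 : 1 + a * a' - (P + θ) * (b * a' + b') =
      (1 - 2 * gg * P * Q + gg ^ 2 * (1 + Q ^ 2) * (1 - P ^ 2)) + (E0 - E1 - E2) := by
    rw [← hE0, ← hE1, ← hE2]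
    ring
  have c2 : 1 + a * a' - (Q + φ) * (b' * a - b) =
      (1 + 2 * gg * P * Q + gg ^ 2 * (1 + P ^ 2) * (1 - Q ^ 2)) + (E0 - E3 + E4) := by
    rw [← hE0, ← hE3, ← hE4]
    ring
  have c0 : 1 + a * a' = 1 + gg ^ 2 * (1 + P ^ 2) * (1 + Q ^ 2) + E0 := by
    rw [← hE0]
    ring
  have hd : dd = 1 / 10000 := rfl
  have hg : gg = 1 / 12 := rfl
  have hPQ : |P * Q| ≤ 1 := by simpa using abs_mul_le hP hQ
  obtain ⟨pq1, pq2⟩ := abs_le.mp hPQ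
  have g1 : 0 ≤ gg ^ 2 * (1 + Q ^ 2) * (1 - P ^ 2) :=
    mul_nonneg (by positivity) (by have := (sq_le_one_iff_abs_le_one P).mpr hP; linarith)
  have g2 : 0 ≤ gg ^ 2 * (1 + P ^ 2) * (1 - Q ^ 2) :=
    mul_nonneg (by positivity) (by have := (sq_le_one_iff_abs_le_one Q).mpr hQ; linarith)
  have g3 : 2 * gg * P * Q = (1 / 6) * (P * Q) := by rw [hg]; ring
  rw [g3] at c1 c2 hF
  rw [c1, c2, c0]
  have ab : ∀ {x y H : ℝ}, 1 / 2 ≤ H → H ≤ 0.52 → |x| ≤ y → -(0.52 * y) ≤ H * x ∧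
      H * x ≤ 0.52 * y := by
    intro x y H h1 h2 hx
    have h3 : |H| ≤ 0.52 := abs_le.mpr ⟨by linarith, h2⟩
    have h4 := abs_mul_le h3 hx
    exact abs_le.mp h4
  have k1 := ab HP1 HP2 f1
  have k2 := ab HP1 HP2 f2
  have k3 := ab HQ1 HQ2 f3
  have k4 := ab HQ1 HQ2 f4
  have k0 : |(HP + HQ - 1) * E0| ≤ 0.04 * (0.03 * dd) :=
    abs_mul_le (abs_le.mpr ⟨by linarith, by linarith⟩) e0
  obtain ⟨k01, k02⟩ := abs_le.mp k0
  obtain ⟨E01, E02⟩ := abs_le.mp e0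
  obtain ⟨E11, E12⟩ := abs_le.mp f1
  obtain ⟨E21, E22⟩ := abs_le.mp f2
  obtain ⟨E31, E32⟩ := abs_le.mp f3
  obtain ⟨E41, E42⟩ := abs_le.mp f4
  have C1p : 0.7 ≤ 1 - 1 / 6 * (P * Q) + gg ^ 2 * (1 + Q ^ 2) * (1 - P ^ 2) +
      (E0 - E1 - E2) := by
    rw [hd] at *
    linarith
  have C2p : 0.7 ≤ 1 + 1 / 6 * (P * Q) + gg ^ 2 * (1 + P ^ 2) * (1 - Q ^ 2) +
      (E0 - E3 + E4) := by
    rw [hd] at *
    linarith
  refine ⟨?_, by linarith, by linarith⟩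
  have e : (HP + dd / 2) * (1 - 1 / 6 * (P * Q) + gg ^ 2 * (1 + Q ^ 2) * (1 - P ^ 2) +
        (E0 - E1 - E2)) +
      (HQ + dd / 2) * (1 + 1 / 6 * (P * Q) + gg ^ 2 * (1 + P ^ 2) * (1 - Q ^ 2) +
        (E0 - E3 + E4)) - (1 + gg ^ 2 * (1 + P ^ 2) * (1 + Q ^ 2) + E0) =
      (HP * (1 - 1 / 6 * (P * Q) + gg ^ 2 * (1 + Q ^ 2) * (1 - P ^ 2)) +
        HQ * (1 + 1 / 6 * (P * Q) + gg ^ 2 * (1 + P ^ 2) * (1 - Q ^ 2)) - 1 -
        gg ^ 2 * (1 + P ^ 2) * (1 + Q ^ 2)) + ((HP + HQ - 1) * E0 - HP * E1 - HP * E2 -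
        HQ * E3 + HQ * E4) + dd / 2 * ((1 - 1 / 6 * (P * Q) +
          gg ^ 2 * (1 + Q ^ 2) * (1 - P ^ 2) + (E0 - E1 - E2)) +
        (1 + 1 / 6 * (P * Q) + gg ^ 2 * (1 + P ^ 2) * (1 - Q ^ 2) + (E0 - E3 + E4))) := by
    ring
  have m : dd / 2 * (0.7 + 0.7) ≤ dd / 2 * ((1 - 1 / 6 * (P * Q) +
          gg ^ 2 * (1 + Q ^ 2) * (1 - P ^ 2) + (E0 - E1 - E2)) +
        (1 + 1 / 6 * (P * Q) + gg ^ 2 * (1 + P ^ 2) * (1 - Q ^ 2) + (E0 - E3 + E4))) :=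
    mul_le_mul_of_nonneg_left (by linarith) (by rw [hd]; norm_num)
  have pos : 0 < (HP + dd / 2) * (1 - 1 / 6 * (P * Q) + gg ^ 2 * (1 + Q ^ 2) * (1 - P ^ 2) +
        (E0 - E1 - E2)) +
      (HQ + dd / 2) * (1 + 1 / 6 * (P * Q) + gg ^ 2 * (1 + P ^ 2) * (1 - Q ^ 2) +
        (E0 - E3 + E4)) - (1 + gg ^ 2 * (1 + P ^ 2) * (1 + Q ^ 2) + E0) := by
    rw [e]
    obtain ⟨k11, k12⟩ := k1
    obtain ⟨k21, k22⟩ := k2
    obtain ⟨k31, k32⟩ := k3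
    obtain ⟨k41, k42⟩ := k4
    have hd0 : 0 < dd := by rw [hd]; norm_num
    linarith
  linarith

/-- if a point lies above the tops in both bundles we get a contradiction -/
lemma not_both {x y z P Q HP HQ : ℝ} (hP : |P| ≤ 1) (hQ : |Q| ≤ 1) (a b a' b' : ℝ)
    (ha : a = gg * (1 + P * (P + dd))) (hb : b = gg * (P + (P + dd)))
    (ha' : a' = gg * (1 + Q * (Q + dd))) (hb' : b' = gg * (Q + (Q + dd)))
    (hHP : HP = 1 / 2 + gg ^ 2 * (P ^ 2 + P ^ 4) + 5 * gg ^ 4 * P ^ 4)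
    (hHQ : HQ = 1 / 2 + gg ^ 2 * (Q ^ 2 + Q ^ 4) + 5 * gg ^ 4 * Q ^ 4)
    (h1 : P * (z - b * x) ≤ y - a * x) (h2 : y - a * x ≤ (P + dd) * (z - b * x))
    (h3 : Q * (1 - z + b' * y) ≤ x + a' * y) (h4 : x + a' * y ≤ (Q + dd) * (1 - z + b' * y))
    (h5 : HP + dd / 2 < z - b * x) (h6 : HQ + dd / 2 < 1 - z + b' * y) : False := by
  obtain ⟨HP1, HP2⟩ := H_bound hP
  obtain ⟨HQ1, HQ2⟩ := H_bound hQ
  rw [← hHP] at HP1 HP2
  rw [← hHQ] at HQ1 HQ2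
  have hd : (0 : ℝ) < dd := by unfold dd; norm_num
  obtain ⟨z0, hz0⟩ : ∃ z0, z0 = z - b * x := ⟨_, rfl⟩
  obtain ⟨w0, hw0⟩ : ∃ w0, w0 = 1 - z + b' * y := ⟨_, rfl⟩
  rw [← hz0] at h1 h2 h5
  rw [← hw0] at h3 h4 h6
  have z0p : 0 < z0 := by linarith
  have w0p : 0 < w0 := by linarith
  obtain ⟨θ, hθ⟩ : ∃ θ, θ = (y - a * x) / z0 - P := ⟨_, rfl⟩
  obtain ⟨φ, hφ⟩ : ∃ φ, φ = (x + a' * y) / w0 - Q := ⟨_, rfl⟩
  have hy : y = (P + θ) * z0 + a * x := by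
    rw [hθ]
    field_simp
    ring
  have hx : x = (Q + φ) * w0 - a' * y := by
    rw [hφ]
    field_simp
    ring
  have hθ' : |θ| ≤ dd := by
    rw [hθ, abs_le]
    constructor
    · have : P ≤ (y - a * x) / z0 := (le_div_iff₀ z0p).mpr h1
      linarith
    · have : (y - a * x) / z0 ≤ P + dd := (div_le_iff₀ z0p).mpr h2
      linarith
  have hφ' : |φ| ≤ dd := by
    rw [hφ, abs_le]
    constructor
    · have : Q ≤ (x + a' * y) / w0 := (le_div_iff₀ w0p).mpr h3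
      linarith
    · have : (x + a' * y) / w0 ≤ Q + dd := (div_le_iff₀ w0p).mpr h4
      linarith
  obtain ⟨hc, hc1, hc2⟩ := claim P Q θ φ hP hQ hθ' hφ' a b a' b' HP HQ ha hb ha' hb' hHP hHQ
  have key : z0 * (1 + a * a' - (P + θ) * (b * a' + b')) +
      w0 * (1 + a * a' - (Q + φ) * (b' * a - b)) = 1 + a * a' := by
    have s1 : z0 + w0 = 1 - b * x + b' * y := by rw [hz0, hw0]; ring
    have s2 : y * (1 + a * a') = (P + θ) * z0 + a * ((Q + φ) * w0) := by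
      have : y = (P + θ) * z0 + a * ((Q + φ) * w0 - a' * y) := by
        rw [← hx]
        exact hy
      linarith
    have s3 : x * (1 + a * a') = (Q + φ) * w0 - a' * ((P + θ) * z0) := by
      have : x = (Q + φ) * w0 - a' * ((P + θ) * z0 + a * x) := by
        rw [← hy]
        exact hx
      linarith
    have s4 : (z0 + w0) * (1 + a * a') = (1 + a * a') - b * (x * (1 + a * a')) +
        b' * (y * (1 + a * a')) := by
      rw [s1]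
      ring
    rw [s2, s3] at s4
    linarith
  have m1 := mul_le_mul_of_nonneg_right h5.le hc1
  have m2 := mul_le_mul_of_nonneg_right h6.le hc2
  linarith

end CoverAux

open CoverAux in
theorem cover (x y z : ℝ) (hx : |x| ≤ 1 - z) (hy : |y| ≤ z) :
    (∃ k < NN, (z - bk k * x, y - ak k * x) ∈ T (tk k) (tk (k + 1)) (hk k)) ∨
      (∃ l < NN, (1 - z + bk l * y, x + ak l * y) ∈ T (tk l) (tk (l + 1)) (hk l)) := by
  obtain ⟨k, hkN, k1, k2, k3⟩ := exists_wedge x y z hy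
  obtain ⟨l, hlN, l1, l2, l3⟩ := exists_wedge (-y) x (1 - z) hx
  have e1 : 1 - z - bk l * -y = 1 - z + bk l * y := by ring
  have e2 : x - ak l * -y = x + ak l * y := by ring
  rw [e1] at l1 l2 l3
  rw [e2] at l2 l3
  by_cases h1 : z - bk k * x ≤ hk k
  · exact Or.inl ⟨k, hkN, k1, h1, k2, k3⟩
  by_cases h2 : 1 - z + bk l * y ≤ hk l
  · exact Or.inr ⟨l, hlN, l1, h2, l2, l3⟩
  exfalso
  push Not at h1 h2
  rw [hk_eq] at h1 h2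
  rw [tk_succ] at k3 l3
  refine not_both (abs_le.mpr (tk_mem hkN)) (abs_le.mpr (tk_mem hlN)) (ak k) (bk k) (ak l) (bk l)
    ?_ ?_ ?_ ?_ rfl rfl k2 k3 l2 l3 h1 h2
  · rw [← tk_succ]; rfl
  · rw [← tk_succ]; rfl
  · rw [← tk_succ]; rfl
  · rw [← tk_succ]; rfl

end Vale.Agent.P243
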