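import Mathlib

/-!
# P243 (Bang's half-area problem): definitions
-/

open MeasureTheory
open scoped BigOperators

namespace Vale.Agent.P243

/-- Euclidean three-space. -/
abbrev E3 : Type := EuclideanSpace ℝ (Fin 3)

/-- The plane through the origin orthogonal to `u`. -/
noncomputable abbrev perp (u : E3) : Submodule ℝ E3 := (Submodule.span ℝ {u})ᗮ

/-- The orthogonal projection of `K` to the plane orthogonal to `u`. -/
noncomputable def shadow (u : E3) (K : Set E3) : Set (perp u) :=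
  (perp u).orthogonalProjectionOnto '' K

/-- The cylinder `B + ℝ u`. -/
def cylinder (u : E3) (B : Set (perp u)) : Set E3 :=
  {x | ∃ b ∈ B, ∃ r : ℝ, x = (b : E3) + r • u}

/-- Planar area (Lebesgue measure of the Euclidean plane orthogonal to `u`). -/
noncomputable def area {u : E3} (B : Set (perp u)) : ℝ := (volume B).toReal

/-- The point with affine coordinates `(x, y, z)`; the squared norm of a difference of two such
points is `2 (dx² + dy² + 2 dz²)`. -/
noncomputable def pt (x y z : ℝ) : E3 := !₂[1 - 2 * z, x + y, x - y]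

/-- The direction with affine components `(x, y, z)`. -/
noncomputable def dr (x y z : ℝ) : E3 := !₂[-2 * z, x + y, x - y]

/-- The regular tetrahedron with vertices `(1,1,1)`, `(1,-1,-1)`, `(-1,1,-1)`, `(-1,-1,1)`, in
affine coordinates `|x| ≤ 1 - z`, `|y| ≤ z`. -/
def tetra : Set E3 := {p | ∃ x y z : ℝ, |x| ≤ 1 - z ∧ |y| ≤ z ∧ p = pt x y z}

/-- The determinant of the three vectors `A`, `B`, `C`. -/
def tri (A B C : E3) : ℝ :=
  A 0 * (B 1 * C 2 - B 2 * C 1) - A 1 * (B 0 * C 2 - B 2 * C 0) + A 2 * (B 0 * C 1 - B 1 * C 0)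

/-- The triangle `s z ≤ y ≤ t z`, `0 ≤ z ≤ h` (first coordinate `z`, second coordinate `y`). -/
def T (s t h : ℝ) : Set (ℝ × ℝ) := {q | 0 ≤ q.1 ∧ q.1 ≤ h ∧ s * q.1 ≤ q.2 ∧ q.2 ≤ t * q.1}

/-- The open version of the triangle `T`. -/
def To (s t h : ℝ) : Set (ℝ × ℝ) := {q | 0 < q.1 ∧ q.1 < h ∧ s * q.1 < q.2 ∧ q.2 < t * q.1}

/-- number of wedges -/
def NN : ℕ := 20000

/-- strength of the field -/
noncomputable def gg : ℝ := 1 / 12

noncomputable def tk (k : ℕ) : ℝ := -1 + 2 * k / NN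

noncomputable def ak (k : ℕ) : ℝ := gg * (1 + tk k * tk (k + 1))

noncomputable def bk (k : ℕ) : ℝ := gg * (tk k + tk (k + 1))

noncomputable def hk (k : ℕ) : ℝ :=
  1 / 2 + gg ^ 2 * (tk k ^ 2 + tk k ^ 4) + 5 * gg ^ 4 * tk k ^ 4 + 1 / NN

end Vale.Agent.P243
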