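import Mathlib

/-!
# P243 (Bang's half-area problem): the notions used in the statement
-/

open MeasureTheory

namespace Vale.Agent.P243.Bang

/-- Euclidean three-space. -/
abbrev Space : Type := EuclideanSpace ℝ (Fin 3)

/-- The plane through the origin orthogonal to `u`. -/
noncomputable def plane (u : Space) : Submodule ℝ Space := (Submodule.span ℝ {u})ᗮ

/-- Area: the two-dimensional Euclidean Hausdorff measure, which on every plane is the planar
Lebesgue measure. -/
noncomputable def area (B : Set Space) : ℝ := (Measure.euclideanHausdorffMeasure 2 B).toReal

/-- The orthogonal projection of `K` to the plane orthogonal to `u`. -/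
noncomputable def shadow (u : Space) (K : Set Space) : Set Space := (plane u).starProjection '' K

/-- The cylinder `B + ℝ u`. -/
def cylinder (u : Space) (B : Set Space) : Set Space := {x | ∃ b ∈ B, ∃ r : ℝ, x = b + r • u}

/-- `A_min(K)`: the smallest area of an orthogonal projection of `K` to a plane. -/
noncomputable def Amin (K : Set Space) : ℝ := ⨅ v : {v : Space // ‖v‖ = 1}, area (shadow v.1 K)

end Vale.Agent.P243.Bang
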