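import Vale.Agent.P243.Main
import Vale.Agent.P243.Statement

/-!
# P243: the final statement over Mathlib notions on the ambient space
-/

open MeasureTheory
open scoped BigOperators

namespace Vale.Agent.P243

namespace FinalAux

lemma finrank_perp (u : E3) (hu : ‖u‖ = 1) : Module.finrank ℝ (perp u) = 2 := by
  have hu0 : u ≠ 0 := by
    intro h
    rw [h, norm_zero] at hu
    norm_num at hu
  have : Fact (Module.finrank ℝ E3 = 2 + 1) := ⟨by simp⟩
  exact Submodule.finrank_orthogonal_span_singleton hu0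

lemma mu_val (u : E3) (hu : ‖u‖ = 1) (B : Set (perp u)) :
    μHE[2] ((Subtype.val : perp u → E3) '' B) = volume B := by
  rw [isometry_subtype_coe.euclideanHausdorffMeasure_image]
  have h := InnerProductSpace.euclideanHausdorffMeasure_eq_volume (V := perp u)
  rw [finrank_perp u hu] at h
  rw [h]

lemma area_val (u : E3) (hu : ‖u‖ = 1) (B : Set (perp u)) :
    Bang.area ((Subtype.val : perp u → E3) '' B) = area B := by
  unfold Bang.area area
  rw [mu_val u hu]

lemma shadow_eq (u : E3) (K : Set E3) :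
    Bang.shadow u K = (Subtype.val : perp u → E3) '' shadow u K := by
  unfold Bang.shadow shadow Bang.plane
  rw [Set.image_image]
  rfl

lemma cylinder_eq (u : E3) (B : Set (perp u)) :
    Bang.cylinder u ((Subtype.val : perp u → E3) '' B) = cylinder u B := by
  unfold Bang.cylinder cylinder
  ext x
  simp only [Set.mem_ofPred_eq, Set.exists_mem_image]

lemma Amin_eq (K : Set E3) : Bang.Amin K = Amin K := by
  unfold Bang.Amin Amin
  congr 1
  ext v
  rw [shadow_eq, area_val v.1 v.2]

end FinalAux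

open FinalAux in
theorem final :
    ∃ K : Set Bang.Space, Convex ℝ K ∧ IsCompact K ∧ (interior K).Nonempty ∧
      ∃ (m : ℕ) (u : Fin m → Bang.Space) (B : Fin m → Set Bang.Space),
        (∀ i, ‖u i‖ = 1 ∧ B i ⊆ Bang.plane (u i) ∧ MeasurableSet (B i) ∧ μHE[2] (B i) < ⊤) ∧
        K ⊆ ⋃ i, Bang.cylinder (u i) (B i) ∧
        0 < Bang.Amin K ∧ ∑ i, Bang.area (B i) ≤ 49993 / 100000 * Bang.Amin K ∧
        ∑ i, Bang.area (B i) / Bang.area (Bang.shadow (u i) K) ≤ 49993 / 100000 := by
  obtain ⟨K, h1, h2, h3, m, u, B, hu, hm, hv, hc, h4, h5, h6⟩ := main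
  refine ⟨K, h1, h2, h3, m, u, fun i => (Subtype.val : perp (u i) → E3) '' B i, fun i =>
    ⟨hu i, ?_, ?_, ?_⟩, ?_, ?_, ?_, ?_⟩
  · rintro x ⟨b, _, rfl⟩
    exact b.2
  · exact (MeasurableEmbedding.subtype_coe
      (perp (u i)).closed_of_finiteDimensional.measurableSet).measurableSet_image.mpr (hm i)
  · rw [mu_val (u i) (hu i)]
    exact hv i
  · simp only [cylinder_eq]
    exact hc
  · rw [Amin_eq]
    exact h4
  · rw [Amin_eq]
    refine le_trans (le_of_eq ?_) h5
    exact Finset.sum_congr rfl fun i _ => area_val (u i) (hu i) (B i)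
  · refine le_trans (le_of_eq ?_) h6
    refine Finset.sum_congr rfl fun i _ => ?_
    rw [shadow_eq, area_val (u i) (hu i), area_val (u i) (hu i)]

end Vale.Agent.P243
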