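import Vale.Agent.P243.Defs

/-!
# P243: the area of the projection of a parametrised planar set
-/

open MeasureTheory
open scoped BigOperators

namespace Vale.Agent.P243

namespace GramAux

/-- explicit inner product -/
theorem inner_expl (v w : E3) : inner ℝ v w = v 0 * w 0 + v 1 * w 1 + v 2 * w 2 := by
  rw [PiLp.inner_apply, Fin.sum_univ_three]
  simp only [RCLike.inner_apply, conj_trivial]
  ring

theorem finrank_perp (u : E3) (hu : ‖u‖ = 1) : Module.finrank ℝ (perp u) = 2 := by
  have : Fact (Module.finrank ℝ E3 = 2 + 1) := ⟨by simp⟩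
  have hne : u ≠ 0 := by
    intro h
    rw [h, norm_zero] at hu
    exact zero_ne_one hu
  exact Submodule.finrank_orthogonal_span_singleton hne

theorem exists_basis (u : E3) (hu : ‖u‖ = 1) : Nonempty (OrthonormalBasis (Fin 2) ℝ (perp u)) := by
  exact ⟨(stdOrthonormalBasis ℝ (perp u)).reindex (finCongr (finrank_perp u hu))⟩

/-- the coordinates, as a measurable equivalence -/
noncomputable def coord (u : E3) (o : OrthonormalBasis (Fin 2) ℝ (perp u)) :
    perp u ≃ᵐ ℝ × ℝ :=
  o.measurableEquiv.trans ((MeasurableEquiv.toLp 2 (Fin 2 → ℝ)).symm.trans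
    MeasurableEquiv.finTwoArrow)

theorem coord_mp (u : E3) (o : OrthonormalBasis (Fin 2) ℝ (perp u)) :
    MeasurePreserving (coord u o) volume volume := by
  have h1 := o.measurePreserving_measurableEquiv
  have h2 := EuclideanSpace.volume_preserving_symm_measurableEquiv_toLp (Fin 2)
  have h3 := MeasureTheory.volume_preserving_finTwoArrow ℝ
  exact (h3.comp (h2.comp h1))

theorem coord_apply (u : E3) (o : OrthonormalBasis (Fin 2) ℝ (perp u)) (v : perp u) :
    coord u o v = (inner ℝ (o 0 : E3) (v : E3), inner ℝ (o 1 : E3) (v : E3)) := by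
  have h : coord u o v = ((o.repr v) 0, (o.repr v) 1) := rfl
  rw [h, o.repr_apply_apply, o.repr_apply_apply]
  rfl

/-- the linear map in coordinates -/
noncomputable def lin (a b c d : ℝ) : (ℝ × ℝ) →ₗ[ℝ] (ℝ × ℝ) where
  toFun q := (q.1 * a + q.2 * b, q.1 * c + q.2 * d)
  map_add' x y := by
    ext <;> simp <;> ring
  map_smul' r x := by
    ext <;> simp <;> ring

theorem det_lin (a b c d : ℝ) : LinearMap.det (lin a b c d) = a * d - b * c := by
  rw [← LinearMap.det_toMatrix (Module.Basis.finTwoProd ℝ), Matrix.det_fin_two]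
  simp [LinearMap.toMatrix_apply, lin]

theorem cauchy_binet (A B u o p : E3) (h00 : inner ℝ o o = (1 : ℝ)) (h11 : inner ℝ p p = (1 : ℝ))
    (h01 : inner ℝ o p = (0 : ℝ)) (huu : inner ℝ u u = (1 : ℝ)) (h0u : inner ℝ o u = (0 : ℝ))
    (h1u : inner ℝ p u = (0 : ℝ)) :
    |inner ℝ o A * inner ℝ p B - inner ℝ o B * inner ℝ p A| = |tri A B u| := by
  have key : inner ℝ o A * inner ℝ p B - inner ℝ o B * inner ℝ p A
      = tri A B u * tri o p u := by
    have hA : tri A B u * tri o p u =
        (inner ℝ o A * inner ℝ p B - inner ℝ o B * inner ℝ p A) * inner ℝ u u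
        - (inner ℝ o A * inner ℝ p u - inner ℝ o u * inner ℝ p A) * inner ℝ B u
        + (inner ℝ o B * inner ℝ p u - inner ℝ o u * inner ℝ p B) * inner ℝ A u := by
      simp only [inner_expl, tri]
      ring
    rw [hA, huu, h0u, h1u]
    ring
  have hdet : tri o p u ^ 2 = 1 := by
    have hA : tri o p u * tri o p u =
        (inner ℝ o o * inner ℝ p p - inner ℝ o p * inner ℝ o p) * inner ℝ u u
        - (inner ℝ o o * inner ℝ p u - inner ℝ o u * inner ℝ o p) * inner ℝ p u
        + (inner ℝ o p * inner ℝ p u - inner ℝ o u * inner ℝ p p) * inner ℝ o u := by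
      simp only [inner_expl, tri]
      ring
    rw [sq, hA, huu, h0u, h1u, h00, h11, h01]
    ring
  have habs : |tri o p u| = 1 := by
    have h2 : |tri o p u| ^ 2 = 1 := by rw [sq_abs, hdet]
    nlinarith [abs_nonneg (tri o p u)]
  rw [key, abs_mul, habs, mul_one]

end GramAux

open GramAux in
/-- area of the projection of a parametrised planar set -/
theorem gram (u : E3) (hu : ‖u‖ = 1) (C A B : E3) (S : Set (ℝ × ℝ)) :
    volume ((fun q : ℝ × ℝ => (perp u).orthogonalProjectionOnto (C + q.1 • A + q.2 • B)) '' S) =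
      ENNReal.ofReal |tri A B u| * volume S := by
  obtain ⟨o⟩ := exists_basis u hu
  set P := (perp u).orthogonalProjectionOnto with hP
  have hmem : ∀ v : perp u, inner ℝ (v : E3) u = (0 : ℝ) := by
    intro v
    have h := v.2
    rw [Submodule.mem_orthogonal_singleton_iff_inner_left] at h
    exact h
  -- pass to coordinates
  have h1 : volume ((fun q : ℝ × ℝ => P (C + q.1 • A + q.2 • B)) '' S)
      = volume (coord u o '' ((fun q : ℝ × ℝ => P (C + q.1 • A + q.2 • B)) '' S)) := by
    rw [(coord u o).image_eq_preimage_symm]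
    exact (((coord_mp u o).symm (coord u o)).measure_preimage_equiv _).symm
  have h2 : coord u o '' ((fun q : ℝ × ℝ => P (C + q.1 • A + q.2 • B)) '' S)
      = (fun x => coord u o (P C) + x) ''
        (lin (inner ℝ (o 0 : E3) A) (inner ℝ (o 0 : E3) B) (inner ℝ (o 1 : E3) A)
          (inner ℝ (o 1 : E3) B) '' S) := by
    rw [Set.image_image, Set.image_image]
    apply Set.image_congr
    intro q _
    rw [coord_apply, coord_apply]
    simp only [lin, LinearMap.coe_mk, AddHom.coe_mk]
    have e : ∀ (v : perp u) (w : E3), inner ℝ (v : E3) ((P w : perp u) : E3) = inner ℝ (v : E3) w := by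
      intro v w
      have := Submodule.inner_orthogonalProjectionOnto_eq_of_mem_left (𝕜 := ℝ) v w
      rw [← this]
      rfl
    rw [e, e, e, e]
    simp only [inner_add_right, inner_smul_right]
    ext <;> simp <;> ring
  rw [h1, h2, Set.image_add_left, measure_preimage_add, Measure.addHaar_image_linearMap, det_lin]
  congr 2
  have ho := o.orthonormal
  have ho0 : inner ℝ (o 0 : E3) (o 0 : E3) = (1 : ℝ) := by
    have h := (orthonormal_iff_ite.1 ho) 0 0
    rw [if_pos rfl] at h
    exact h
  have ho1 : inner ℝ (o 1 : E3) (o 1 : E3) = (1 : ℝ) := by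
    have h := (orthonormal_iff_ite.1 ho) 1 1
    rw [if_pos rfl] at h
    exact h
  have ho01 : inner ℝ (o 0 : E3) (o 1 : E3) = (0 : ℝ) := by
    have h := (orthonormal_iff_ite.1 ho) 0 1
    rw [if_neg (by decide)] at h
    exact h
  have huu : inner ℝ u u = (1 : ℝ) := by
    rw [real_inner_self_eq_norm_sq, hu]; norm_num
  exact cauchy_binet A B u (o 0 : E3) (o 1 : E3) ho0 ho1 ho01 huu (hmem _) (hmem _)

end Vale.Agent.P243
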