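import Vale.Agent.P243.Cover
import Vale.Agent.P243.Cost
import Vale.Agent.P243.Base
import Vale.Agent.P243.Amin
import Vale.Agent.P243.Body

/-!
# P243: the counterexample to Bang's half-area question
-/

open MeasureTheory
open scoped BigOperators

namespace Vale.Agent.P243

/-- `A_min(K)`: the smallest area of an orthogonal projection of `K` to a plane. -/
noncomputable def Amin (K : Set E3) : ℝ := ⨅ v : {v : E3 // ‖v‖ = 1}, area (shadow v.1 K)

namespace MainAux

lemma shadow_lt_top (u : E3) : volume (shadow u tetra) < ⊤ := by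
  have h : IsCompact (shadow u tetra) :=
    tetra_compact.image (perp u).orthogonalProjectionOnto.continuous
  exact h.measure_lt_top

lemma area_shadow (u : E3) (hu : ‖u‖ = 1) : 2 * Real.sqrt 2 ≤ area (shadow u tetra) := by
  have h := amin u hu
  unfold area
  rw [← ENNReal.ofReal_le_iff_le_toReal (shadow_lt_top u).ne]
  exact h

lemma le_Amin : 2 * Real.sqrt 2 ≤ Amin tetra := by
  unfold Amin
  have : Nonempty {v : E3 // ‖v‖ = 1} := ⟨⟨u1 0, norm_u1 0⟩⟩
  exact le_ciInf fun v => area_shadow v.1 v.2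

/-- directions -/
noncomputable def U : Fin NN ⊕ Fin NN → E3
  | Sum.inl k => u1 k
  | Sum.inr k => u2 k

/-- bases -/
noncomputable def BB : ∀ i : Fin NN ⊕ Fin NN, Set (perp (U i))
  | Sum.inl k => B1 k
  | Sum.inr k => B2 k

lemma norm_U (i : Fin NN ⊕ Fin NN) : ‖U i‖ = 1 := by
  cases i with
  | inl k => exact norm_u1 k
  | inr k => exact norm_u2 k

lemma meas_BB (i : Fin NN ⊕ Fin NN) : MeasurableSet (BB i) := by
  cases i with
  | inl k => exact meas_B1 k
  | inr k => exact meas_B2 k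

/-- common value of the areas -/
noncomputable def val (k : ℕ) : ℝ :=
  2 * Real.sqrt 2 * (1 / NN * (hk k ^ 2 / Real.sqrt (1 + ak k ^ 2 + 2 * bk k ^ 2)))

lemma val_nonneg (k : ℕ) : 0 ≤ val k := by
  unfold val
  positivity

lemma vol_BB (i : Fin NN ⊕ Fin NN) : volume (BB i) < ⊤ := by
  cases i with
  | inl k =>
    change volume (B1 k) < ⊤
    rw [vol_B1 k k.2]
    exact ENNReal.ofReal_lt_top
  | inr k =>
    change volume (B2 k) < ⊤
    rw [vol_B2 k k.2]
    exact ENNReal.ofReal_lt_top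

lemma area_inl (k : Fin NN) : area (BB (Sum.inl k)) = val k := by
  change (volume (B1 k)).toReal = _
  rw [vol_B1 k k.2]
  exact ENNReal.toReal_ofReal (val_nonneg k)

lemma area_inr (k : Fin NN) : area (BB (Sum.inr k)) = val k := by
  change (volume (B2 k)).toReal = _
  rw [vol_B2 k k.2]
  exact ENNReal.toReal_ofReal (val_nonneg k)

lemma area_BB_nonneg (i : Fin NN ⊕ Fin NN) : 0 ≤ area (BB i) := ENNReal.toReal_nonneg

lemma sum_area : ∑ i, area (BB i) ≤ 49993 / 100000 * (2 * Real.sqrt 2) := by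
  rw [Fintype.sum_sum_type]
  simp only [area_inl, area_inr]
  rw [Fin.sum_univ_eq_sum_range (fun k => val k) NN]
  have h : ∑ k ∈ Finset.range NN, val k + ∑ k ∈ Finset.range NN, val k =
      2 * Real.sqrt 2 * ∑ k ∈ Finset.range NN,
        2 / NN * (hk k ^ 2 / Real.sqrt (1 + ak k ^ 2 + 2 * bk k ^ 2)) := by
    rw [← Finset.sum_add_distrib, Finset.mul_sum]
    refine Finset.sum_congr rfl fun k _ => ?_
    unfold val
    ring
  rw [h, mul_comm]
  exact mul_le_mul_of_nonneg_right cost'.le (by positivity)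

lemma covered : tetra ⊆ ⋃ i, cylinder (U i) (BB i) := by
  rintro p ⟨x, y, z, hx, hy, rfl⟩
  rw [Set.mem_iUnion]
  rcases cover x y z hx hy with ⟨k, hkN, h⟩ | ⟨l, hlN, h⟩
  · exact ⟨Sum.inl ⟨k, hkN⟩, mem_cyl1 k x y z h⟩
  · exact ⟨Sum.inr ⟨l, hlN⟩, mem_cyl2 l x y z h⟩

end MainAux

open MainAux in
theorem main : ∃ K : Set E3, Convex ℝ K ∧ IsCompact K ∧ (interior K).Nonempty ∧
    ∃ (m : ℕ) (u : Fin m → E3) (B : ∀ i, Set (perp (u i))),
      (∀ i, ‖u i‖ = 1) ∧ (∀ i, MeasurableSet (B i)) ∧ (∀ i, volume (B i) < ⊤) ∧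
      K ⊆ ⋃ i, cylinder (u i) (B i) ∧
      0 < Amin K ∧ ∑ i, area (B i) ≤ 49993 / 100000 * Amin K ∧
      ∑ i, area (B i) / area (shadow (u i) K) ≤ 49993 / 100000 := by
  refine ⟨tetra, tetra_convex, tetra_compact, tetra_interior,
    Fintype.card (Fin NN ⊕ Fin NN), fun i => U ((Fintype.equivFin _).symm i),
    fun i => BB ((Fintype.equivFin _).symm i), fun i => norm_U _, fun i => meas_BB _,
    fun i => vol_BB _, ?_, ?_, ?_, ?_⟩
  · intro p hp
    obtain ⟨i, hi⟩ := Set.mem_iUnion.mp (covered hp)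
    obtain ⟨j, rfl⟩ := (Fintype.equivFin (Fin NN ⊕ Fin NN)).symm.surjective i
    exact Set.mem_iUnion.mpr ⟨j, hi⟩
  · exact lt_of_lt_of_le (by positivity) le_Amin
  · rw [Equiv.sum_comp (Fintype.equivFin (Fin NN ⊕ Fin NN)).symm (fun i => area (BB i))]
    refine sum_area.trans ?_
    exact mul_le_mul_of_nonneg_left le_Amin (by norm_num)
  · rw [Equiv.sum_comp (Fintype.equivFin (Fin NN ⊕ Fin NN)).symm
      (fun i => area (BB i) / area (shadow (U i) tetra))]
    have h : ∀ i, area (BB i) / area (shadow (U i) tetra) ≤ area (BB i) / (2 * Real.sqrt 2) :=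
      fun i => div_le_div_of_nonneg_left (area_BB_nonneg i) (by positivity)
        (area_shadow (U i) (norm_U i))
    refine (Finset.sum_le_sum fun i _ => h i).trans ?_
    rw [← Finset.sum_div, div_le_iff₀ (by positivity)]
    exact sum_area

end Vale.Agent.P243
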